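import Vale.Agent.P032.H396.Left

/-!
# P032: the curve of a unit circle passing near a centre

`z`, `y0` with `dist y0 z = 1`, `w` near `y0`: the unit circle `S(w)` passes near `z`.  Its points near
`z` are `x = z + cis t - cis t'`; `z + cis t` and `z - cis t'` are the two common points of `S(x)` and
`S(z)`.

`crv` : for `t` near `θ`, `w` near `y0` there is `t' = F t w`, continuous, with `dist x w = 1`.
`rel_crv` : the sign of `t - t'` is the sign of `(dist w z ^ 2 - 1) * ip (I * cis θ) (y0 - z)`.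
-/

open Set Filter Topology Metric

noncomputable section

namespace Vale.Agent.P032.Six

theorem ip_comm' (a b : ℂ) : ip a b = ip b a := by unfold ip; ring

theorem cis_sub_cis (t t' : ℝ) :
    cis t - cis t' = ((2 * Real.sin ((t - t') / 2) : ℝ) : ℂ) * (Complex.I * cis ((t + t') / 2)) := by
  apply Complex.ext
  · simp only [Complex.sub_re, Complex.mul_re, Complex.mul_im, Complex.I_re, Complex.I_im, cis_re,
      cis_im, Complex.ofReal_re, Complex.ofReal_im]
    have h1 := Real.cos_sub_cos t t'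
    rw [h1]; ring
  · simp only [Complex.sub_im, Complex.mul_re, Complex.mul_im, Complex.I_re, Complex.I_im, cis_re,
      cis_im, Complex.ofReal_re, Complex.ofReal_im]
    have h1 := Real.sin_sub_sin t t'
    rw [h1]; ring

/-- the relation between the two angles -/
theorem rel_crv {z w : ℂ} {t t' : ℝ} (hx : dist (z + cis t - cis t') w = 1) :
    dist w z ^ 2 - 1 = 4 * Real.sin ((t - t') / 2) *
      (ip (Complex.I * cis ((t + t') / 2)) (w - z) - Real.sin ((t - t') / 2)) := by
  have e1 : z + cis t - cis t' = z + ((2 * Real.sin ((t - t') / 2) : ℝ) : ℂ) *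
      (Complex.I * cis ((t + t') / 2)) := by rw [← cis_sub_cis]; ring
  have h1 : dist (z + cis t - cis t') w ^ 2 = 1 := by rw [hx]; norm_num
  rw [e1, sq_line] at h1
  have h2 : ip (Complex.I * cis ((t + t') / 2)) (Complex.I * cis ((t + t') / 2)) = 1 := by
    unfold ip
    have h3 := Real.sin_sq_add_cos_sq ((t + t') / 2)
    simp only [Complex.mul_re, Complex.mul_im, Complex.I_re, Complex.I_im, cis_re, cis_im]
    linarith
  rw [h2, dist_comm z w] at h1
  linarith

/-- uniqueness of `t'` -/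
theorem uniq_crv {z w : ℂ} {t a b : ℝ} (ha : dist (z + cis t - cis a) w = 1)
    (hb : dist (z + cis t - cis b) w = 1)
    (hip : ip (Complex.I * cis ((a + b) / 2)) (z + cis t - w) ≠ 0) : Real.sin ((a - b) / 2) = 0 := by
  have h1 : dist (z + cis t - cis a) w ^ 2 = dist (z + cis t - cis b) w ^ 2 := by rw [ha, hb]
  rw [sq_dist, sq_dist] at h1
  have hA := ip_sq (norm_cis a)
  have hB := ip_sq (norm_cis b)
  have h2 : ip (cis a - cis b) (z + cis t - w) = 0 := by
    unfold ip
    simp only [Complex.sub_re, Complex.sub_im, Complex.add_re, Complex.add_im] at h1 ⊢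
    nlinarith
  rw [cis_sub_cis] at h2
  have h3 : ip (((2 * Real.sin ((a - b) / 2) : ℝ) : ℂ) * (Complex.I * cis ((a + b) / 2)))
      (z + cis t - w) = 2 * Real.sin ((a - b) / 2) *
        ip (Complex.I * cis ((a + b) / 2)) (z + cis t - w) := by
    unfold ip
    rw [Complex.re_ofReal_mul, Complex.im_ofReal_mul]
    ring
  rw [h3] at h2
  rcases mul_eq_zero.1 h2 with h4 | h4
  · linarith
  · exact absurd h4 hip

/-- uniqueness of `t` -/
theorem uniq_crv' {z w : ℂ} {t' a b : ℝ} (ha : dist (z + cis a - cis t') w = 1)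
    (hb : dist (z + cis b - cis t') w = 1)
    (hip : ip (Complex.I * cis ((a + b) / 2)) (z - cis t' - w) ≠ 0) :
    Real.sin ((a - b) / 2) = 0 := by
  have h1 : dist (z + cis a - cis t') w ^ 2 = dist (z + cis b - cis t') w ^ 2 := by rw [ha, hb]
  rw [sq_dist, sq_dist] at h1
  have hA := ip_sq (norm_cis a)
  have hB := ip_sq (norm_cis b)
  have h2 : ip (cis a - cis b) (z - cis t' - w) = 0 := by
    unfold ip
    simp only [Complex.sub_re, Complex.sub_im, Complex.add_re, Complex.add_im] at h1 ⊢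
    nlinarith
  rw [cis_sub_cis] at h2
  have h3 : ip (((2 * Real.sin ((a - b) / 2) : ℝ) : ℂ) * (Complex.I * cis ((a + b) / 2)))
      (z - cis t' - w) = 2 * Real.sin ((a - b) / 2) *
        ip (Complex.I * cis ((a + b) / 2)) (z - cis t' - w) := by
    unfold ip
    rw [Complex.re_ofReal_mul, Complex.im_ofReal_mul]
    ring
  rw [h3] at h2
  rcases mul_eq_zero.1 h2 with h4 | h4
  · linarith
  · exact absurd h4 hip

theorem cis_add' (a b : ℝ) : cis (a + b) = cis a * cis b := by
  unfold cis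
  push_cast
  rw [add_mul, Complex.exp_add]

/-- a vector of length at most two and the unit vectors at distance one from it -/
theorem dist_arccos {D : ℂ} {α σ : ℝ} (hσ : σ = 1 ∨ σ = -1) (hD : D = (‖D‖ : ℂ) * cis α)
    (h2 : ‖D‖ ≤ 2) : ‖D - cis (α + σ * Real.arccos (‖D‖ / 2))‖ = 1 := by
  have h0 := norm_nonneg D
  have hcos : Real.cos (Real.arccos (‖D‖ / 2)) = ‖D‖ / 2 :=
    Real.cos_arccos (by linarith) (by linarith)
  set β := Real.arccos (‖D‖ / 2) with hβ
  have e1 : D - cis (α + σ * β) = cis α * ((‖D‖ : ℂ) - cis (σ * β)) := by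
    rw [cis_add']
    conv_lhs => rw [hD]
    ring
  rw [e1, norm_mul, norm_cis, one_mul]
  have h3 : ‖(‖D‖ : ℂ) - cis (σ * β)‖ ^ 2 = 1 := by
    rw [Complex.sq_norm, Complex.normSq_apply]
    simp only [Complex.sub_re, Complex.sub_im, Complex.ofReal_re, Complex.ofReal_im, cis_re, cis_im]
    have h4 : Real.cos (σ * β) = ‖D‖ / 2 := by
      rcases hσ with rfl | rfl
      · rw [one_mul]; exact hcos
      · rw [neg_one_mul, Real.cos_neg]; exact hcos
    have h5 := Real.sin_sq_add_cos_sq (σ * β)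
    rw [h4] at h5 ⊢
    nlinarith
  have h4 := norm_nonneg ((‖D‖ : ℂ) - cis (σ * β))
  nlinarith

/-- **The curve.** -/
theorem crv {z y0 : ℂ} {θ : ℝ} (hy0 : dist y0 z = 1)
    (hκ : ip (Complex.I * cis θ) (y0 - z) ≠ 0) :
    ∃ F : ℝ → ℂ → ℝ, (∀ ε > 0, ∀ᶠ p : ℝ × ℂ in 𝓝 (θ, y0), |F p.1 p.2 - θ| < ε) ∧
      (∀ᶠ p : ℝ × ℂ in 𝓝 (θ, y0), ContinuousAt (fun p : ℝ × ℂ => F p.1 p.2) p) ∧
      ∀ᶠ p : ℝ × ℂ in 𝓝 (θ, y0), dist (z + cis p.1 - cis (F p.1 p.2)) p.2 = 1 := by
  set D0 : ℂ := z + cis θ - y0 with hD0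
  have hn0 : ‖y0 - z‖ = 1 := by rw [← dist_eq_norm]; exact hy0
  have hipD : ip (Complex.I * cis θ) D0 = -ip (Complex.I * cis θ) (y0 - z) := by
    unfold ip
    rw [hD0]
    simp only [Complex.sub_re, Complex.sub_im, Complex.add_re, Complex.add_im, Complex.mul_re,
      Complex.mul_im, Complex.I_re, Complex.I_im, cis_re, cis_im]
    ring
  have hD0ne : D0 ≠ 0 := by
    intro h0
    rw [h0] at hipD
    apply hκ
    have : ip (Complex.I * cis θ) 0 = 0 := by unfold ip; simp
    linarith
  have hr0 : 0 < ‖D0‖ := norm_pos_iff.2 hD0ne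
  -- `D0 - cis θ` is a unit vector
  have hunit : ‖D0 - cis θ‖ = 1 := by
    have e : D0 - cis θ = -(y0 - z) := by rw [hD0]; ring
    rw [e, norm_neg]; exact hn0
  obtain ⟨ζ, hζ⟩ := exists_cis (u := D0 / (‖D0‖ : ℂ)) (by
    rw [norm_div, Complex.norm_real, norm_norm, div_self hr0.ne'])
  have hDζ : D0 = (‖D0‖ : ℂ) * cis ζ := by
    rw [← hζ, mul_div_cancel₀]
    exact_mod_cast hr0.ne'
  -- the cosine of the angle
  have hcos : Real.cos (θ - ζ) = ‖D0‖ / 2 := by
    have h1 : ‖D0 - cis θ‖ ^ 2 = 1 := by rw [hunit]; norm_num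
    rw [Complex.sq_norm, Complex.normSq_apply] at h1
    have h2 : D0.re = ‖D0‖ * Real.cos ζ := by
      conv_lhs => rw [hDζ]
      rw [Complex.re_ofReal_mul, cis_re]
    have h3 : D0.im = ‖D0‖ * Real.sin ζ := by
      conv_lhs => rw [hDζ]
      rw [Complex.im_ofReal_mul, cis_im]
    simp only [Complex.sub_re, Complex.sub_im, cis_re, cis_im] at h1
    rw [h2, h3] at h1
    have h4 := Real.sin_sq_add_cos_sq ζ
    have h5 := Real.sin_sq_add_cos_sq θ
    rw [Real.cos_sub]
    have h6 : ‖D0‖ * (‖D0‖ - 2 * (Real.cos θ * Real.cos ζ + Real.sin θ * Real.sin ζ)) = 0 := by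
      linear_combination h1 - (‖D0‖ ^ 2) * h4 - h5
    rcases mul_eq_zero.1 h6 with h7 | h7
    · exact absurd h7 hr0.ne'
    · linarith
  have hle2 : ‖D0‖ ≤ 2 := by
    have := Real.cos_le_one (θ - ζ)
    linarith
  -- the length is less than two
  have hlt2 : ‖D0‖ < 2 := by
    refine lt_of_le_of_ne hle2 fun h2 => hκ ?_
    have h3 : Real.cos (θ - ζ) = 1 := by rw [hcos, h2]; norm_num
    have h4 : Real.sin (θ - ζ) = 0 := by
      have := Real.sin_sq_add_cos_sq (θ - ζ)
      rw [h3] at this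
      nlinarith
    have h5 : ip (Complex.I * cis θ) D0 = -(‖D0‖ * Real.sin (θ - ζ)) := by
      have h2' : D0.re = ‖D0‖ * Real.cos ζ := by
        conv_lhs => rw [hDζ]
        rw [Complex.re_ofReal_mul, cis_re]
      have h3' : D0.im = ‖D0‖ * Real.sin ζ := by
        conv_lhs => rw [hDζ]
        rw [Complex.im_ofReal_mul, cis_im]
      unfold ip
      simp only [Complex.mul_re, Complex.mul_im, Complex.I_re, Complex.I_im, cis_re, cis_im]
      rw [h2', h3', Real.sin_sub]
      ring
    rw [h4] at h5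
    linarith
  -- sign and angle
  obtain ⟨σ, α, hσ, hα, hDα⟩ : ∃ σ α : ℝ, (σ = 1 ∨ σ = -1) ∧
      θ = α + σ * Real.arccos (‖D0‖ / 2) ∧ D0 = (‖D0‖ : ℂ) * cis α := by
    have harc : Real.cos (Real.arccos (‖D0‖ / 2)) = Real.cos (θ - ζ) := by
      rw [hcos]
      exact Real.cos_arccos (by linarith) (by linarith)
    rw [Real.cos_eq_cos_iff] at harc
    obtain ⟨k, hk | hk⟩ := harc
    · refine ⟨1, ζ + 2 * k * Real.pi, Or.inl rfl, by linarith, ?_⟩
      have : cis (ζ + 2 * k * Real.pi) = cis ζ := by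
        apply Complex.ext
        · rw [cis_re, cis_re, show ζ + 2 * (k : ℝ) * Real.pi = ζ + k * (2 * Real.pi) by ring,
            Real.cos_add_int_mul_two_pi]
        · rw [cis_im, cis_im, show ζ + 2 * (k : ℝ) * Real.pi = ζ + k * (2 * Real.pi) by ring,
            Real.sin_add_int_mul_two_pi]
      rw [this]; exact hDζ
    · refine ⟨-1, ζ + 2 * k * Real.pi, Or.inr rfl, by linarith, ?_⟩
      have : cis (ζ + 2 * k * Real.pi) = cis ζ := by
        apply Complex.ext
        · rw [cis_re, cis_re, show ζ + 2 * (k : ℝ) * Real.pi = ζ + k * (2 * Real.pi) by ring,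
            Real.cos_add_int_mul_two_pi]
        · rw [cis_im, cis_im, show ζ + 2 * (k : ℝ) * Real.pi = ζ + k * (2 * Real.pi) by ring,
            Real.sin_add_int_mul_two_pi]
      rw [this]; exact hDζ
  set G : ℝ × ℂ → ℂ := fun p => z + cis p.1 - p.2 with hG
  have hGc : Continuous G := by
    have h1 : Continuous fun p : ℝ × ℂ => cis p.1 := continuous_cis.comp continuous_fst
    exact (continuous_const.add h1).sub continuous_snd
  have hG0 : G (θ, y0) = D0 := rfl
  set F : ℝ → ℂ → ℝ := fun t w => α + Complex.arg (G (t, w) / D0) +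
    σ * Real.arccos (‖G (t, w)‖ / 2) with hF
  have hF0 : F θ y0 = θ := by
    simp only [hF, hG0, div_self hD0ne, Complex.arg_one, add_zero]
    exact hα.symm
  have hslit : ∀ᶠ p : ℝ × ℂ in 𝓝 (θ, y0), G p / D0 ∈ Complex.slitPlane := by
    have hc : Continuous fun p => G p / D0 := hGc.div_const _
    refine hc.continuousAt.eventually_mem (Complex.isOpen_slitPlane.mem_nhds ?_)
    rw [hG0, div_self hD0ne]
    exact Complex.one_mem_slitPlane
  have hcont : ∀ᶠ p : ℝ × ℂ in 𝓝 (θ, y0), ContinuousAt (fun p : ℝ × ℂ => F p.1 p.2) p := by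
    filter_upwards [hslit] with p hp
    have h1 : ContinuousAt (fun p : ℝ × ℂ => Complex.arg (G p / D0)) p :=
      ContinuousAt.comp (g := Complex.arg) (f := fun p : ℝ × ℂ => G p / D0)
        (Complex.continuousAt_arg hp) (hGc.div_const _).continuousAt
    have h2 : ContinuousAt (fun p : ℝ × ℂ => Real.arccos (‖G p‖ / 2)) p :=
      (Real.continuous_arccos.comp (hGc.norm.div_const _)).continuousAt
    exact (continuousAt_const.add h1).add (continuousAt_const.mul h2)
  refine ⟨F, fun ε hε => ?_, hcont, ?_⟩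
  · have h1 := hcont.self_of_nhds
    have h2 := h1.eventually (Metric.ball_mem_nhds _ hε)
    filter_upwards [h2] with p hp
    have hp : dist (F p.1 p.2) (F θ y0) < ε := hp
    rwa [hF0, Real.dist_eq] at hp
  · have hlt : ∀ᶠ p : ℝ × ℂ in 𝓝 (θ, y0), ‖G p‖ < 2 :=
      hGc.norm.continuousAt.eventually (Iio_mem_nhds (by
        show ‖G (θ, y0)‖ < 2
        rw [hG0]; exact hlt2))
    have hne : ∀ᶠ p : ℝ × ℂ in 𝓝 (θ, y0), G p ≠ 0 :=
      hGc.continuousAt.eventually_ne (by rw [hG0]; exact hD0ne)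
    filter_upwards [hlt, hne] with p hp1 hp2
    have hD : G p = (‖G p‖ : ℂ) * cis (α + Complex.arg (G p / D0)) := by
      have h3 := Complex.norm_mul_exp_arg_mul_I (G p / D0)
      have h4 : G p = D0 * (G p / D0) := by rw [mul_div_cancel₀ _ hD0ne]
      have h5 : cis (Complex.arg (G p / D0)) =
          Complex.exp (Complex.arg (G p / D0) * Complex.I) := rfl
      rw [cis_add', h5]
      have h6 : (‖G p‖ : ℂ) = (‖D0‖ : ℂ) * (‖G p / D0‖ : ℂ) := by
        rw [norm_div]
        push_cast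
        rw [mul_div_cancel₀]
        exact_mod_cast hr0.ne'
      calc G p = D0 * (G p / D0) := h4
        _ = ((‖D0‖ : ℂ) * cis α) * ((‖G p / D0‖ : ℂ) *
            Complex.exp (Complex.arg (G p / D0) * Complex.I)) := by rw [h3, ← hDα]
        _ = (‖G p‖ : ℂ) * (cis α * Complex.exp (Complex.arg (G p / D0) * Complex.I)) := by
          rw [h6]; ring
    have h7 := dist_arccos hσ hD hp1.le
    rw [dist_eq_norm]
    have e : z + cis p.1 - cis (F p.1 p.2) - p.2 = G p - cis (α + Complex.arg (G p / D0) +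
        σ * Real.arccos (‖G p‖ / 2)) := by
      simp only [hF, hG]; ring
    rw [e]
    exact h7

end Vale.Agent.P032.Six
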