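import Vale.Agent.P032.H396.Win
import Vale.Agent.P032.Words6.H704.Gen6

/-!
# P032: killing an event of a clean six-coloured centre

`Kill U z s u` : near every point `y0` of the unit circle about `z` there is no point of `U s` on the
side of the circle given by the direction orthogonal to `pt z u - z`.
`no_event` : it is impossible that of any two neighbouring directions `m + j`, `m + j + 1` one kills.
`Six6.kill_direct`, `Six6.kill_window` : the kill lemmas in the parameter `pt z`.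
-/

open Set Filter Topology Metric

noncomputable section

namespace Vale.Agent.P032.H396

open Vale.Agent.P032.Six Vale.Agent.P032.S5.H767 Vale.Agent.P032.Words6.H704

variable {k : ℕ}

/-- no points of `U s` near the circle on one side -/
def Kill (U : Fin k → Set ℂ) (z : ℂ) (s : Fin k) (u : ℝ) : Prop :=
  ∀ y0, dist y0 z = 1 → ip (Complex.I * cis (u * (Real.pi / 3))) (y0 - z) ≠ 0 →
    ∀ᶠ w in 𝓝 y0, 0 < (dist w z ^ 2 - 1) * ip (Complex.I * cis (u * (Real.pi / 3))) (y0 - z) →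
      w ∉ U s

theorem cis_per (t : ℝ) (n : ℤ) : cis (t + n * (2 * Real.pi)) = cis t := by
  apply Complex.ext
  · rw [cis_re, cis_re, Real.cos_add_int_mul_two_pi]
  · rw [cis_im, cis_im, Real.sin_add_int_mul_two_pi]

theorem Kill.per {U : Fin k → Set ℂ} {z : ℂ} {s : Fin k} {u : ℝ} (h : Kill U z s u) (n : ℤ) :
    Kill U z s (u + 6 * n) := by
  have e : cis ((u + 6 * (n : ℝ)) * (Real.pi / 3)) = cis (u * (Real.pi / 3)) := by
    rw [show (u + 6 * (n : ℝ)) * (Real.pi / 3) = u * (Real.pi / 3) + n * (2 * Real.pi) by ring,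
      cis_per]
  intro y0 h1 h2
  rw [e] at h2 ⊢
  exact h y0 h1 h2

/-- the sign of the direction -/
theorem ip_sin (t β : ℝ) : ip (Complex.I * cis t) (cis β) = Real.sin (β - t) := by
  rw [ip_I_cis, cis_re, cis_im, Real.sin_sub]; ring

/-- **The event lemma.** -/
theorem no_event_int {U : Fin k → Set ℂ} {T : ℂ → Set (Fin k)} (h : Irr U T) {z : ℂ}
    (hz : z ∈ XX U) {s : Fin k} (hs : s ∈ T z) {m : ℝ}
    (hK : ∀ j : ℤ, Kill U z s (m + j) ∨ Kill U z s (m + j + 1)) : False := by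
  obtain ⟨y0, hy, hsy⟩ := h.partner_XX hz s
  have hy0 : dist y0 z = 1 := by rw [dist_comm]; exact hy
  obtain ⟨β, hβ⟩ := exists_cis (u := y0 - z) (by rw [← dist_eq_norm]; exact hy0)
  -- for both signs a killing direction
  have key : ∀ σ : ℝ, (σ = 1 ∨ σ = -1) → ∃ u : ℝ, Kill U z s u ∧
      0 < σ * ip (Complex.I * cis (u * (Real.pi / 3))) (y0 - z) := by
    intro σ hσ
    obtain ⟨β', hβ'⟩ : ∃ β' : ℝ, ∀ t, σ * Real.sin (β - t) = Real.sin (β' - t) := by
      rcases hσ with rfl | rfl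
      · exact ⟨β, fun t => one_mul _⟩
      · refine ⟨β + Real.pi, fun t => ?_⟩
        rw [show β + Real.pi - t = β - t + Real.pi by ring, Real.sin_add_pi]; ring
    have hp : 0 < Real.pi / 3 := by positivity
    set v : ℝ := β' / (Real.pi / 3) - m with hv
    set j : ℤ := ⌈v⌉ - 2 with hj
    have h1 : v ≤ ⌈v⌉ := Int.le_ceil v
    have h2 : (⌈v⌉ : ℝ) < v + 1 := Int.ceil_lt_add_one v
    have hjr : (j : ℝ) = (⌈v⌉ : ℝ) - 2 := by rw [hj]; push_cast; ring
    have hβv : β' = (v + m) * (Real.pi / 3) := by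
      rw [hv]; field_simp; ring
    have hpos : ∀ u : ℝ, 0 < v + m - u → v + m - u < 3 →
        0 < σ * ip (Complex.I * cis (u * (Real.pi / 3))) (y0 - z) := by
      intro u h3 h4
      rw [hβ, ip_sin, hβ']
      have e : β' - u * (Real.pi / 3) = (v + m - u) * (Real.pi / 3) := by rw [hβv]; ring
      rw [e]
      refine Real.sin_pos_of_pos_of_lt_pi (mul_pos h3 hp) ?_
      calc (v + m - u) * (Real.pi / 3) < 3 * (Real.pi / 3) := by
            exact mul_lt_mul_of_pos_right h4 hp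
        _ = Real.pi := by ring
    rcases hK j with h3 | h3
    · exact ⟨_, h3, hpos _ (by rw [hjr]; linarith) (by rw [hjr]; linarith)⟩
    · exact ⟨_, h3, hpos _ (by rw [hjr]; linarith) (by rw [hjr]; linarith)⟩
  obtain ⟨u1, hK1, h1⟩ := key 1 (Or.inl rfl)
  obtain ⟨u2, hK2, h2⟩ := key (-1) (Or.inr rfl)
  have e1 := hK1 y0 hy0 (by intro h0; rw [h0] at h1; norm_num at h1)
  have e2 := hK2 y0 hy0 (by intro h0; rw [h0] at h2; norm_num at h2)
  have hfr : ∃ᶠ w in 𝓝 y0, w ∈ U s := mem_closure_iff_frequently.1 hsy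
  have h3 : ∃ᶠ w in 𝓝 y0, w ∈ U s ∧ 0 < dist w z := hfr.and_eventually (by
    have hc : Continuous fun w : ℂ => dist w z := by fun_prop
    refine hc.continuousAt.eventually (lt_mem_nhds ?_)
    show 0 < dist y0 z
    rw [hy0]; exact one_pos)
  obtain ⟨w, ⟨hw, hwd⟩, hw1, hw2⟩ := (h3.and_eventually (e1.and e2)).exists
  have hne : dist w z ≠ 1 := fun h4 => h.mx.notMem' hw h4 (h.sub z hs)
  rcases lt_or_gt_of_ne hne with h5 | h5
  · refine hw2 ?_ hw
    have h6 : dist w z ^ 2 - 1 < 0 := by nlinarith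
    nlinarith
  · refine hw1 ?_ hw
    have h6 : 0 < dist w z ^ 2 - 1 := by nlinarith
    nlinarith

/-- the event lemma, six directions -/
theorem no_event {U : Fin k → Set ℂ} {T : ℂ → Set (Fin k)} (h : Irr U T) {z : ℂ}
    (hz : z ∈ XX U) {s : Fin k} (hs : s ∈ T z) {m : ℝ}
    (hK : ∀ j : Fin 6, Kill U z s (m + (j.val : ℝ)) ∨ Kill U z s (m + ((j + 1).val : ℝ))) :
    False := by
  refine no_event_int h hz hs (m := m) fun j => ?_
  have h0 : 0 ≤ j % 6 := Int.emod_nonneg _ (by norm_num)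
  have h6 : j % 6 < 6 := Int.emod_lt_of_pos _ (by norm_num)
  obtain ⟨r, hr⟩ : ∃ r : ℕ, (r : ℤ) = j % 6 := ⟨(j % 6).toNat, Int.toNat_of_nonneg h0⟩
  have hr6 : r < 6 := by omega
  have hj : j = r + 6 * (j / 6) := by omega
  have hjr : (j : ℝ) = (r : ℝ) + 6 * ((j / 6 : ℤ) : ℝ) := by
    conv_lhs => rw [hj]
    push_cast; ring
  rcases hK ⟨r, hr6⟩ with h1 | h1
  · left
    have h2 := h1.per (j / 6)
    have e : m + (((⟨r, hr6⟩ : Fin 6).val : ℕ) : ℝ) + 6 * ((j / 6 : ℤ) : ℝ) = m + j := by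
      rw [hjr]; ring
    rwa [e] at h2
  · right
    by_cases h5 : r = 5
    · have h2 := h1.per (j / 6 + 1)
      have e0 : ((⟨r, hr6⟩ : Fin 6) + 1).val = 0 := by subst h5; rfl
      have e : m + ((((⟨r, hr6⟩ : Fin 6) + 1).val : ℕ) : ℝ) + 6 * ((j / 6 + 1 : ℤ) : ℝ) =
          m + j + 1 := by
        rw [e0, hjr, h5]; push_cast; ring
      rwa [e] at h2
    · have h2 := h1.per (j / 6)
      have e0 : ((⟨r, hr6⟩ : Fin 6) + 1).val = r + 1 := by
        have : r = 0 ∨ r = 1 ∨ r = 2 ∨ r = 3 ∨ r = 4 := by omega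
        rcases this with rfl | rfl | rfl | rfl | rfl <;> rfl
      have e : m + ((((⟨r, hr6⟩ : Fin 6) + 1).val : ℕ) : ℝ) + 6 * ((j / 6 : ℤ) : ℝ) =
          m + j + 1 := by
        rw [e0, hjr]; push_cast; ring
      rwa [e] at h2

variable {U : Fin 6 → Set ℂ} {T : ℂ → Set (Fin 6)} {z : ℂ}

theorem Six6.xx (C : Six6 U T z) : z ∈ XX U := by
  obtain ⟨y, hy⟩ : ∃ y, dist y z = 1 := ⟨pt z 0, dist_pt z 0⟩
  obtain ⟨i, hi⟩ := C.irr.ne y
  exact C.irr.mem_XX (y := y) (by rw [dist_comm]; exact hy) (C.all i) (C.irr.sub y hi)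

/-- the antipodal point -/
theorem pt_anti (z : ℂ) (t : ℝ) (j : Fin 6) :
    pt z (t + ((j + 3).val : ℝ)) = z - cis ((t + (j.val : ℝ)) * (Real.pi / 3)) := by
  rw [pt_fin3]
  unfold pt
  ring

theorem Six6.kill_direct (C : Six6 U T z) {s : Fin 6} {m η : ℝ} (j : Fin 6) {Q : Set (Fin 6)}
    (hη : 0 < η) (hQ : ∀ t, m - η < t → t < m → Q ⊆ Pal U (pt z (t + ((j + 3).val : ℝ))))
    (hT : ∀ i, i ∈ Q ∨ i ∈ T (pt z (m + (j.val : ℝ))) ∨ i = s) :
    Kill U z s (m + (j.val : ℝ)) := by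
  intro y0 hy0 hκ
  have hp : 0 < Real.pi / 3 := by positivity
  have hpt : z + cis ((m + (j.val : ℝ)) * (Real.pi / 3)) = pt z (m + (j.val : ℝ)) := rfl
  refine C.irr.kill_direct (η := η * (Real.pi / 3)) (Q := Q) hy0 hκ (by positivity) ?_ ?_ ?_
  · rw [hpt]; exact C.clean _ (dist_pt z _)
  · intro t h1 h2
    have h3 := hQ (t / (Real.pi / 3) - (j.val : ℝ)) (by
      rw [lt_sub_iff_add_lt, lt_div_iff₀ hp]; linarith) (by
      rw [sub_lt_iff_lt_add, div_lt_iff₀ hp]; linarith)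
    rw [pt_anti, sub_add_cancel, div_mul_cancel₀ _ hp.ne'] at h3
    exact h3
  · intro i _
    rcases hT i with h1 | h1 | h1
    · exact Or.inl (Or.inl h1)
    · exact Or.inl (Or.inr h1)
    · exact Or.inr h1

theorem card_compl_le {Q : Set (Fin 6)} {s : Fin 6} (hQ : Q.ncard = 2) (hs : s ∉ Q)
    (X : Set (Fin 6)) : (X \ (Q ∪ {s})).ncard ≤ 3 := by
  have h1 : (Q ∪ {s}).ncard = 3 := by
    rw [Set.union_singleton, Set.ncard_insert_of_notMem hs (Set.toFinite _), hQ]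
  have h2 : (X \ (Q ∪ {s})).ncard ≤ ((Q ∪ {s})ᶜ).ncard :=
    Set.ncard_le_ncard (fun i hi => hi.2) (Set.toFinite _)
  have h3 := Set.ncard_add_ncard_compl (Q ∪ {s})
  rw [Nat.card_eq_fintype_card, Fintype.card_fin] at h3
  omega

theorem Six6.kill_window (C : Six6 U T z) {s c c' : Fin 6} {m η : ℝ} (j : Fin 6)
    {Q A B : Set (Fin 6)} (hη : 0 < η)
    (hAB : ∀ t, |t - m| < η → T (pt z (t + (j.val : ℝ))) = T (pt z (m + (j.val : ℝ))) ∨
      T (pt z (t + (j.val : ℝ))) = A ∨ T (pt z (t + (j.val : ℝ))) = B)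
    (hA : A.ncard = 2) (hB : B.ncard = 2) (hQ2 : Q.ncard = 2) (hsQ : s ∉ Q) (hsB : s ∉ B)
    (hQ : ∀ t, m - η < t → t < m → Q ⊆ Pal U (pt z (t + ((j + 3).val : ℝ))))
    (hT1 : ∀ i, i ∈ Q ∨ i ∈ T (pt z (m + (j.val : ℝ))) ∨ i = s ∨ i = c)
    (hT2 : ∀ i, i ∈ Q ∨ i ∈ A ∨ i = s ∨ i = c)
    (hT3 : ∀ i, i ∈ Q ∨ i ∈ B ∨ i = s ∨ i = c ∨ i = c')
    (hT4 : ∀ i, i ∈ A ∨ i ∈ T (pt z (m + ((j + 3).val : ℝ))) ∨ i = s)
    (hT5 : ∀ i, i ∈ B ∨ i ∈ T (pt z (m + ((j + 3).val : ℝ))) ∨ i = s ∨ i = c')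
    (hT6 : ∀ i, i ∈ T (pt z (m + (j.val : ℝ))) ∨ i ∈ T (pt z (m + ((j + 3).val : ℝ))) ∨ i = s)
    (hcc : ∃ q1, dist q1 z = 1 ∧ T q1 = {c, c'}) :
    Kill U z s (m + (j.val : ℝ)) := by
  intro y0 hy0 hκ
  have hp : 0 < Real.pi / 3 := by positivity
  have hpt : z + cis ((m + (j.val : ℝ)) * (Real.pi / 3)) = pt z (m + (j.val : ℝ)) := rfl
  have hpt3 : z - cis ((m + (j.val : ℝ)) * (Real.pi / 3)) = pt z (m + ((j + 3).val : ℝ)) :=
    (pt_anti z m j).symm
  refine C.irr.kill_window (η := η * (Real.pi / 3)) (Q := Q) (A := A) (B := B) (c := c) (c' := c')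
    hy0 hκ (by positivity) ?_ ?_ ?_ hA hB (fun i _ => C.all i) (fun i _ => C.all i) ?_
    (card_compl_le hQ2 hsQ _) (card_compl_le hB hsB _) ?_ ?_ ?_ ?_ ?_ ?_ hcc
  · rw [hpt]; exact C.clean _ (dist_pt z _)
  · rw [hpt3]; exact C.clean _ (dist_pt z _)
  · intro t ht
    obtain ⟨u, rfl⟩ : ∃ u : ℝ, t = (u + (j.val : ℝ)) * (Real.pi / 3) :=
      ⟨t / (Real.pi / 3) - (j.val : ℝ), by rw [sub_add_cancel, div_mul_cancel₀ _ hp.ne']⟩
    rw [show (u + (j.val : ℝ)) * (Real.pi / 3) - (m + (j.val : ℝ)) * (Real.pi / 3) =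
      (u - m) * (Real.pi / 3) by ring, abs_mul, abs_of_pos hp] at ht
    exact hAB u (lt_of_mul_lt_mul_right ht hp.le)
  · intro t h1 h2
    have h3 := hQ (t / (Real.pi / 3) - (j.val : ℝ)) (by
      rw [lt_sub_iff_add_lt, lt_div_iff₀ hp]; linarith) (by
      rw [sub_lt_iff_lt_add, div_lt_iff₀ hp]; linarith)
    rw [pt_anti, sub_add_cancel, div_mul_cancel₀ _ hp.ne'] at h3
    exact h3
  · rw [hpt]
    intro i _
    rcases hT1 i with h1 | h1 | h1 | h1
    · exact Or.inl (Or.inl h1)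
    · exact Or.inl (Or.inr h1)
    · exact Or.inr (Or.inl h1)
    · exact Or.inr (Or.inr h1)
  · intro i _
    rcases hT2 i with h1 | h1 | h1 | h1
    · exact Or.inl (Or.inl h1)
    · exact Or.inl (Or.inr h1)
    · exact Or.inr (Or.inl h1)
    · exact Or.inr (Or.inr h1)
  · intro i _
    rcases hT3 i with h1 | h1 | h1 | h1 | h1
    · exact Or.inl (Or.inl h1)
    · exact Or.inl (Or.inr h1)
    · exact Or.inr (Or.inl h1)
    · exact Or.inr (Or.inr (Or.inl h1))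
    · exact Or.inr (Or.inr (Or.inr h1))
  · rw [hpt3]
    intro i _
    rcases hT4 i with h1 | h1 | h1
    · exact Or.inl (Or.inl h1)
    · exact Or.inl (Or.inr h1)
    · exact Or.inr h1
  · rw [hpt3]
    intro i _
    rcases hT5 i with h1 | h1 | h1 | h1
    · exact Or.inl (Or.inl h1)
    · exact Or.inl (Or.inr h1)
    · exact Or.inr (Or.inl h1)
    · exact Or.inr (Or.inr h1)
  · rw [hpt, hpt3]
    intro i _
    rcases hT6 i with h1 | h1 | h1
    · exact Or.inl (Or.inl h1)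
    · exact Or.inl (Or.inr h1)
    · exact Or.inr h1

end Vale.Agent.P032.H396
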