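import Vale.Agent.P032.H396.Curve
import Vale.Agent.P032.S5.H360.Match

/-!
# P032: kill lemmas at an event

`Irr.kill_direct` : a colour set `Q` carried by the arc just before the point antipodal to
`z + cis θ`, and `T z ⊆ Q ∪ T (z + cis θ) ∪ {s}`: then near a point `y0` of the circle there is no
point of `U s` on the side of the circle which moves the antipodal point to before the event.
-/

open Set Filter Topology Metric

noncomputable section

namespace Vale.Agent.P032.Six

variable {k : ℕ} {U : Fin k → Set ℂ} {T : ℂ → Set (Fin k)}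

/-- from the parameter to the circle -/
theorem sphere_of_param {z : ℂ} {t0 δ : ℝ} (hδ : 0 < δ) {p : ℂ → Prop}
    (hp : ∀ t : ℝ, |t - t0| < δ → p (z + cis t)) : ∀ᶠ q in 𝓝[sphere z 1] (z + cis t0), p q := by
  have h1 := polar_near (z := z) (θ := t0) (lt_min hδ (one_pos : (0 : ℝ) < 1))
  filter_upwards [mem_nhdsWithin_of_mem_nhds h1, self_mem_nhdsWithin] with q hq hqs
  obtain ⟨ρ, s, hρ, hs, rfl⟩ := hq
  have hρ1 : |ρ - 1| < 1 := lt_of_lt_of_le hρ (min_le_right _ _)
  have hρ2 := abs_lt.1 hρ1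
  have h2 : dist (z + (ρ : ℂ) * cis s) z = 1 := hqs
  rw [dist_eq_norm, add_sub_cancel_left, norm_mul, norm_cis, mul_one, Complex.norm_real,
    Real.norm_eq_abs, abs_of_pos (by linarith)] at h2
  rw [h2, Complex.ofReal_one, one_mul]
  exact hp s (lt_of_lt_of_le hs (min_le_left _ _))

/-- the points of the curve have no colour of an arc through `z - cis t'` -/
theorem Mx.rhomb_notMem (h : Mx U) {z : ℂ} {t t' δ : ℝ} (hδ : 0 < δ) {Q : Set (Fin k)}
    (hQ : ∀ u : ℝ, |u - t'| < δ → Q ⊆ Pal U (z - cis u))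
    (hne : z + cis t - cis t' ≠ z) (hlt : ‖cis t - cis t'‖ < 2) {i : Fin k} (hi : i ∈ Q) :
    i ∉ Pal U (z + cis t - cis t') := by
  have hJ : ∀ᶠ q in 𝓝[sphere z 1] (z + cis (t' + Real.pi)), Q ⊆ Pal U q := by
    refine sphere_of_param hδ fun u hu => ?_
    have h1 := hQ (u - Real.pi) (by
      rw [show u - Real.pi - t' = u - (t' + Real.pi) by ring]; exact hu)
    have e : z - cis (u - Real.pi) = z + cis u := by
      have h2 := cis_add_pi (u - Real.pi)
      rw [sub_add_cancel] at h2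
      rw [h2]; ring
    rwa [e] at h1
  refine h.sweep_notMem (z := z) (q := z + cis (t' + Real.pi)) (dist_add_cis z _) hJ ?_
    (Ne.symm hne) ?_ hi
  · rw [dist_eq_norm, cis_add_pi]
    rw [show z + cis t - cis t' - (z + -cis t') = cis t by ring]
    exact norm_cis t
  · rw [cis_add_pi]
    intro h2
    have h3 : cis t - cis t' = -(2 * cis t') := by linear_combination h2
    rw [h3, norm_neg, norm_mul, norm_cis] at hlt
    norm_num at hlt

/-- the same with an arc through `z + cis t` -/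
theorem Mx.rhomb_notMem' (h : Mx U) {z : ℂ} {t t' δ : ℝ} (hδ : 0 < δ) {Q : Set (Fin k)}
    (hQ : ∀ u : ℝ, |u - t| < δ → Q ⊆ Pal U (z + cis u))
    (hne : z + cis t - cis t' ≠ z) (hlt : ‖cis t - cis t'‖ < 2) {i : Fin k} (hi : i ∈ Q) :
    i ∉ Pal U (z + cis t - cis t') := by
  have hJ : ∀ᶠ q in 𝓝[sphere z 1] (z + cis t), Q ⊆ Pal U q := sphere_of_param hδ hQ
  refine h.sweep_notMem (z := z) (q := z + cis t) (dist_add_cis z _) hJ ?_ (Ne.symm hne) ?_ hi
  · rw [dist_eq_norm, show z + cis t - cis t' - (z + cis t) = -cis t' by ring, norm_neg]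
    exact norm_cis t'
  · intro h2
    have h3 : cis t - cis t' = 2 * cis t := by linear_combination h2
    rw [h3, norm_mul, norm_cis] at hlt
    norm_num at hlt

theorem dist_rhomb (z : ℂ) (t t' : ℝ) : dist (z + cis t) (z + cis t - cis t') = 1 := by
  rw [dist_eq_norm, show z + cis t - (z + cis t - cis t') = cis t' by ring]
  exact norm_cis t'

theorem dist_rhomb' (z : ℂ) (t t' : ℝ) : dist (z - cis t') (z + cis t - cis t') = 1 := by
  rw [dist_eq_norm, show z - cis t' - (z + cis t - cis t') = -cis t by ring, norm_neg]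
  exact norm_cis t

/-- the sign of the displacement -/
theorem sign_crv {z y0 : ℂ} {θ : ℝ} (hκ : ip (Complex.I * cis θ) (y0 - z) ≠ 0) :
    ∃ ε > 0, ∀ᶠ w in 𝓝 y0, ∀ t t' : ℝ, |t - θ| < ε → |t' - θ| < ε →
      dist (z + cis t - cis t') w = 1 →
      0 < (dist w z ^ 2 - 1) * ip (Complex.I * cis θ) (y0 - z) → t' < t := by
  set κ := ip (Complex.I * cis θ) (y0 - z) with hκd
  -- the second factor is near `κ`
  have hc : Continuous fun a : (ℝ × ℝ) × ℂ =>
      (ip (Complex.I * cis ((a.1.1 + a.1.2) / 2)) (a.2 - z) - Real.sin ((a.1.1 - a.1.2) / 2)) * κ := by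
    have h1 : Continuous fun a : (ℝ × ℝ) × ℂ => cis ((a.1.1 + a.1.2) / 2) :=
      continuous_cis.comp (by fun_prop)
    have h2 : Continuous fun a : (ℝ × ℝ) × ℂ => Complex.I * cis ((a.1.1 + a.1.2) / 2) :=
      continuous_const.mul h1
    have h3 : Continuous fun a : (ℝ × ℝ) × ℂ =>
        ip (Complex.I * cis ((a.1.1 + a.1.2) / 2)) (a.2 - z) := by
      unfold ip
      exact ((Complex.continuous_re.comp h2).mul
        (Complex.continuous_re.comp (continuous_snd.sub continuous_const))).add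
        ((Complex.continuous_im.comp h2).mul
        (Complex.continuous_im.comp (continuous_snd.sub continuous_const)))
    exact (h3.sub (Real.continuous_sin.comp (by fun_prop))).mul continuous_const
  have h0 : 0 < (ip (Complex.I * cis ((θ + θ) / 2)) (y0 - z) - Real.sin ((θ - θ) / 2)) * κ := by
    rw [show (θ + θ) / 2 = θ by ring, show (θ - θ) / 2 = 0 by ring, Real.sin_zero, sub_zero, ← hκd]
    exact mul_self_pos.2 hκ
  have h1 : ∀ᶠ a : (ℝ × ℝ) × ℂ in 𝓝 ((θ, θ), y0),
      0 < (ip (Complex.I * cis ((a.1.1 + a.1.2) / 2)) (a.2 - z) -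
        Real.sin ((a.1.1 - a.1.2) / 2)) * κ :=
    hc.continuousAt.eventually (lt_mem_nhds h0)
  rw [nhds_prod_eq, Filter.eventually_prod_iff] at h1
  obtain ⟨pa, hpa, pb, hpb, hab⟩ := h1
  obtain ⟨ε, hε, hball⟩ := Metric.eventually_nhds_iff.1 hpa
  refine ⟨min ε 1, lt_min hε one_pos, ?_⟩
  filter_upwards [hpb] with w hw t t' ht ht' hd hpos
  have h2 : pa (t, t') := by
    refine hball ?_
    rw [Prod.dist_eq]
    exact max_lt (by rw [Real.dist_eq]; exact lt_of_lt_of_le ht (min_le_left _ _))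
      (by rw [Real.dist_eq]; exact lt_of_lt_of_le ht' (min_le_left _ _))
  have h3 : 0 < (ip (Complex.I * cis ((t + t') / 2)) (w - z) -
        Real.sin ((t - t') / 2)) * κ := hab h2 hw
  rw [rel_crv hd] at hpos
  have h4 : 0 < Real.sin ((t - t') / 2) := by
    by_contra hcon
    push Not at hcon
    nlinarith
  by_contra hcon
  push Not at hcon
  have h5 := abs_lt.1 (lt_of_lt_of_le ht (min_le_right _ _))
  have h6 := abs_lt.1 (lt_of_lt_of_le ht' (min_le_right _ _))
  have h7 : Real.sin ((t - t') / 2) ≤ 0 :=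
    Real.sin_nonpos_of_nonpos_of_neg_pi_le (by linarith) (by linarith [Real.pi_gt_three])
  linarith

/-- the points of the curve are near `z` -/
theorem near_crv {z : ℂ} {θ : ℝ} {N : Set ℂ} (hN : N ∈ 𝓝 z) :
    ∃ ε > 0, ∀ t t' : ℝ, |t - θ| < ε → |t' - θ| < ε →
      z + cis t - cis t' ∈ N ∧ ‖cis t - cis t'‖ < 2 := by
  have hc : Continuous fun a : ℝ × ℝ => z + cis a.1 - cis a.2 :=
    (continuous_const.add (continuous_cis.comp continuous_fst)).sub
      (continuous_cis.comp continuous_snd)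
  have h1 : ∀ᶠ a : ℝ × ℝ in 𝓝 (θ, θ), z + cis a.1 - cis a.2 ∈ N ∩ ball z 2 := by
    refine hc.continuousAt.preimage_mem_nhds ?_
    simp only [add_sub_cancel_right]
    exact inter_mem hN (ball_mem_nhds _ two_pos)
  obtain ⟨ε, hε, hball⟩ := Metric.eventually_nhds_iff.1 h1
  refine ⟨ε, hε, fun t t' ht ht' => ?_⟩
  have h2 := hball (y := (t, t')) (by
    rw [Prod.dist_eq]
    exact max_lt (by rw [Real.dist_eq]; exact ht) (by rw [Real.dist_eq]; exact ht'))
  refine ⟨h2.1, ?_⟩
  have h3 := h2.2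
  rw [mem_ball, dist_eq_norm] at h3
  rwa [show z + cis t - cis t' - z = cis t - cis t' by ring] at h3

/-- **Direct kill.** -/
theorem Irr.kill_direct (h : Irr U T) {z y0 : ℂ} {s : Fin k} {θ η : ℝ} {Q : Set (Fin k)}
    (hy0 : dist y0 z = 1) (hκ : ip (Complex.I * cis θ) (y0 - z) ≠ 0) (hη : 0 < η)
    (h3 : (T (z + cis θ)).ncard ≤ 3)
    (hQ : ∀ t, θ - η < t → t < θ → Q ⊆ Pal U (z - cis t))
    (hT : T z ⊆ Q ∪ T (z + cis θ) ∪ {s}) :
    ∀ᶠ w in 𝓝 y0, 0 < (dist w z ^ 2 - 1) * ip (Complex.I * cis θ) (y0 - z) → w ∉ U s := by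
  obtain ⟨F, hF1, -, hF3⟩ := crv hy0 hκ
  obtain ⟨ε1, hε1, hsign⟩ := sign_crv hκ
  obtain ⟨ε2, hε2, hnear⟩ := near_crv (θ := θ) (h.nhd z)
  have htend : Tendsto (fun w : ℂ => (θ, w)) (𝓝 y0) (𝓝 (θ, y0)) :=
    (continuous_const.prodMk continuous_id).tendsto y0
  filter_upwards [htend.eventually (hF1 ε1 hε1), htend.eventually (hF1 ε2 hε2),
    htend.eventually (hF1 η hη), htend.eventually hF3, hsign] with w h1 h2 h3' h4 h5 hpos hws
  set t' := F θ w with ht'
  have hz0 : |θ - θ| < ε1 := by simpa using hε1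
  have hz0' : |θ - θ| < ε2 := by simpa using hε2
  have hlt : t' < θ := h5 θ t' hz0 h1 h4 hpos
  obtain ⟨hsub, hn2⟩ := hnear θ t' hz0' h2
  have hsub : T (z + cis θ - cis t') ⊆ T z := hsub
  have hne : z + cis θ - cis t' ≠ z := by
    intro h6
    rw [h6, dist_comm] at h4
    rw [h4] at hpos
    norm_num at hpos
  have h7 := abs_lt.1 h3'
  refine h.not_sub (x := z + cis θ) (y := z + cis θ - cis t') ?_ h3 fun i hi => ?_
  · rw [dist_comm]; exact dist_rhomb z θ t'
  · rcases hT (hsub hi) with (h8 | h8) | h8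
    · exfalso
      refine h.mx.rhomb_notMem (δ := min (θ - t') (t' - (θ - η))) ?_ (fun u hu => ?_) hne hn2 h8
        (h.sub _ hi)
      · exact lt_min (by linarith) (by linarith)
      · have h9 := abs_lt.1 hu
        have h10 := min_le_left (θ - t') (t' - (θ - η))
        have h11 := min_le_right (θ - t') (t' - (θ - η))
        exact hQ u (by linarith) (by linarith)
    · exact h8
    · rw [mem_singleton_iff] at h8
      subst h8
      exact absurd (h.sub _ hi) (h.mx.notMem' hws (by rw [dist_comm]; exact h4))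

end Vale.Agent.P032.Six
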