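import Vale.Agent.P032.S5.H80.Ray

/-!
# P032: the left-over lemma

`Left2 U T z p q t0` : near the antipodal directions `t0` and `t0 + π` the unit circle about `z`
carries (in `Pal`) sets `P`, `Q` of colours with `T z ⊆ P ∪ Q ∪ {p, q}`.

`Irr.left_near` : then near every point `y0` of the circle, off the circle, the colours `p`, `q`
do not meet: `w ∈ U p → q ∉ T w`, `w ∈ U q → p ∉ T w`, and `{p, q} ⊆ T w` only if `4 ≤ |T w|`.

`Irr.no_silent` : if all palettes on the circle have at most three colours and `Left2` holds for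
`s` and every other colour, then `s` is in all palettes of the circle.
No solid rays, no sides.
-/

open Set Filter Topology Metric

noncomputable section

namespace Vale.Agent.P032.Six

variable {k : ℕ} {U : Fin k → Set ℂ} {T : ℂ → Set (Fin k)}

/-- antipodal arcs about the directions `t0`, `t0 + π` which leave at most the colours `p`, `q` -/
def Left2 (U : Fin k → Set ℂ) (T : ℂ → Set (Fin k)) (z : ℂ) (p q : Fin k) (t0 : ℝ) : Prop :=
  ∃ P Q : Set (Fin k), T z ⊆ P ∪ Q ∪ {p, q} ∧ ∃ η > 0,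
    (∀ t : ℝ, |t - t0| < η → P ⊆ Pal U (z + cis t)) ∧
    ∀ t : ℝ, |t - t0| < η → Q ⊆ Pal U (z + cis (t + Real.pi))

theorem cis_add_pi (t : ℝ) : cis (t + Real.pi) = -cis t := by
  unfold cis
  push_cast
  rw [add_mul, Complex.exp_add, Complex.exp_pi_mul_I]
  ring

theorem Left2.symm {z : ℂ} {p q : Fin k} {t0 : ℝ} (h : Left2 U T z p q t0) :
    Left2 U T z q p t0 := by
  obtain ⟨P, Q, h1, h2⟩ := h
  exact ⟨P, Q, by rwa [Set.pair_comm q p], h2⟩

/-- the line orthogonal to a left-over direction -/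
theorem Irr.left_line (h : Irr U T) {z : ℂ} {p q : Fin k} {t0 : ℝ} (hL : Left2 U T z p q t0) :
    ∃ η > 0, ∀ t : ℝ, |t - t0| < η → ∃ δ > 0, ∀ r : ℝ, r ≠ 0 → |r| < δ →
      T (z + r * (Complex.I * cis t)) ⊆ {p, q} := by
  obtain ⟨P, Q, hsub, η, hη, hP, hQ⟩ := hL
  refine ⟨η / 2, by positivity, fun t ht => ?_⟩
  have hη2 : 0 < η / 2 := by positivity
  have hP' : ∀ i ∈ P, ∀ t' : ℝ, |t' - t| < η / 2 → i ∈ Pal U (z + cis t') := by
    intro i hi t' ht'
    refine hP t' ?_ hi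
    have := abs_sub_le t' t t0
    linarith
  have hQ' : ∀ i ∈ Q, ∀ t' : ℝ, |t' - (t + Real.pi)| < η / 2 → i ∈ Pal U (z + cis t') := by
    intro i hi t' ht'
    have h1 := hQ (t' - Real.pi) (by
      have := abs_sub_le (t' - Real.pi) t t0
      have e : t' - Real.pi - t = t' - (t + Real.pi) := by ring
      rw [e] at this
      linarith) hi
    rwa [sub_add_cancel] at h1
  have key : ∀ σ : ℝ, (σ = 1 ∨ σ = -1) → ∀ᶠ r : ℝ in 𝓝[>] 0,
      T (z + r * (σ * (Complex.I * cis t))) ⊆ {p, q} := by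
    intro σ hσ
    have e1 : ∀ i : Fin k, ∀ᶠ r : ℝ in 𝓝[>] 0, i ∈ P →
        i ∉ Pal U (z + r * (σ * (Complex.I * cis t))) := by
      intro i
      by_cases hi : i ∈ P
      · filter_upwards [h.mx.ray_avoid hη2 (hP' i hi) hσ] with r hr _
        exact hr
      · exact Eventually.of_forall fun r hr => absurd hr hi
    have e2 : ∀ i : Fin k, ∀ᶠ r : ℝ in 𝓝[>] 0, i ∈ Q →
        i ∉ Pal U (z + r * (σ * (Complex.I * cis t))) := by
      intro i
      by_cases hi : i ∈ Q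
      · have hσ' : -σ = 1 ∨ -σ = -1 := by
          rcases hσ with rfl | rfl
          · right; rfl
          · left; norm_num
        filter_upwards [h.mx.ray_avoid hη2 (hQ' i hi) hσ'] with r hr _
        rw [cis_add_pi] at hr
        have e : (r : ℂ) * (((-σ : ℝ) : ℂ) * (Complex.I * -cis t)) =
            r * (σ * (Complex.I * cis t)) := by push_cast; ring
        rwa [e] at hr
      · exact Eventually.of_forall fun r hr => absurd hr hi
    have tz : Tendsto (fun r : ℝ => z + r * (σ * (Complex.I * cis t))) (𝓝[>] 0) (𝓝 z) := by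
      have hc : Continuous fun r : ℝ => z + r * (σ * (Complex.I * cis t)) := by fun_prop
      have := hc.tendsto 0
      simp only [Complex.ofReal_zero, zero_mul, add_zero] at this
      exact this.mono_left nhdsWithin_le_nhds
    filter_upwards [eventually_all.2 e1, eventually_all.2 e2, tz.eventually (h.nhd z)]
      with r h1 h2 h3 i hi
    have h4 := h.sub _ hi
    rcases hsub (h3 hi) with (h5 | h5) | h5
    · exact absurd h4 (h1 i h5)
    · exact absurd h4 (h2 i h5)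
    · exact h5
  obtain ⟨δ1, hδ1, h1⟩ := mem_nhdsGT_iff_exists_Ioo_subset.1 (key 1 (Or.inl rfl))
  obtain ⟨δ2, hδ2, h2⟩ := mem_nhdsGT_iff_exists_Ioo_subset.1 (key (-1) (Or.inr rfl))
  refine ⟨min δ1 δ2, lt_min hδ1 hδ2, fun r hr0 hr => ?_⟩
  rcases lt_or_gt_of_ne hr0 with h3 | h3
  · rw [abs_of_neg h3] at hr
    have h4 := h2 ⟨by linarith, lt_of_lt_of_le hr (min_le_right _ _)⟩
    have e : ((-r : ℝ) : ℂ) * (((-1 : ℝ) : ℂ) * (Complex.I * cis t)) =
        r * (Complex.I * cis t) := by push_cast; ring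
    have h5 : T (z + ((-r : ℝ) : ℂ) * (((-1 : ℝ) : ℂ) * (Complex.I * cis t))) ⊆ {p, q} := h4
    rwa [e] at h5
  · rw [abs_of_pos h3] at hr
    have h4 := h1 ⟨h3, lt_of_lt_of_le hr (min_le_left _ _)⟩
    have e : (r : ℂ) * (((1 : ℝ) : ℂ) * (Complex.I * cis t)) =
        r * (Complex.I * cis t) := by push_cast; ring
    have h5 : T (z + (r : ℂ) * (((1 : ℝ) : ℂ) * (Complex.I * cis t))) ⊆ {p, q} := h4
    rwa [e] at h5

theorem ip_I_cis (t : ℝ) (n : ℂ) :
    ip (Complex.I * cis t) n = Real.cos t * n.im - Real.sin t * n.re := by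
  unfold ip
  simp [cis_re, cis_im]
  ring

/-- a direction near `t0` which is not orthogonal -/
theorem exists_dir {n : ℂ} (hn : ‖n‖ = 1) (t0 : ℝ) {η : ℝ} (hη : 0 < η) :
    ∃ t : ℝ, |t - t0| < η ∧ ip (Complex.I * cis t) n ≠ 0 := by
  by_contra hcon
  push Not at hcon
  set s := min (η / 2) 1 with hs
  have hs0 : 0 < s := by positivity
  have hs1 : s ≤ 1 := min_le_right _ _
  have hsη : s < η := lt_of_le_of_lt (min_le_left _ _) (by linarith)
  have h1 := hcon t0 (by simpa using hη)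
  have h2 := hcon (t0 + s) (by
    rw [show t0 + s - t0 = s by ring, abs_of_pos hs0]; exact hsη)
  rw [ip_I_cis] at h1 h2
  rw [Real.cos_add, Real.sin_add] at h2
  have hsin : 0 < Real.sin s := Real.sin_pos_of_pos_of_lt_pi hs0 (by linarith [Real.pi_gt_three])
  have h3 : Real.sin s * (Real.sin t0 * n.im + Real.cos t0 * n.re) = 0 := by
    linear_combination Real.cos s * h1 - h2
  have h4 : Real.sin t0 * n.im + Real.cos t0 * n.re = 0 :=
    (mul_eq_zero.1 h3).resolve_left hsin.ne'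
  have h5 := ip_sq hn
  have h6 := Real.sin_sq_add_cos_sq t0
  have h7 : n.re ^ 2 + n.im ^ 2 = (Real.cos t0 * n.im - Real.sin t0 * n.re) ^ 2 +
      (Real.sin t0 * n.im + Real.cos t0 * n.re) ^ 2 := by
    linear_combination (-(n.re ^ 2 + n.im ^ 2)) * h6
  rw [h1, h4, h5] at h7
  norm_num at h7

/-- **Left-over lemma.** -/
theorem Irr.left_near (h : Irr U T) {z y0 : ℂ} {p q : Fin k} {t0 : ℝ}
    (hL : Left2 U T z p q t0) (hy0 : dist y0 z = 1) :
    ∀ᶠ w in 𝓝 y0, dist w z ≠ 1 → (w ∈ U p → q ∉ T w) ∧ (w ∈ U q → p ∉ T w) ∧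
      ((T w).ncard ≤ 3 → p ∈ T w → q ∉ T w) := by
  obtain ⟨η, hη, hline⟩ := h.left_line hL
  have hn : ‖y0 - z‖ = 1 := by rw [← dist_eq_norm]; exact hy0
  obtain ⟨t, ht, hip⟩ := exists_dir hn t0 hη
  obtain ⟨δ, hδ, hd⟩ := hline t ht
  filter_upwards [line_crossing (z := z) (u := Complex.I * cis t) (y := y0)
    (by rw [dist_comm]; exact hy0) hip hδ] with w hw hwz
  obtain ⟨r, hr, hrw⟩ := hw
  have hr0 : r ≠ 0 := by
    rintro rfl
    rw [Complex.ofReal_zero, zero_mul, add_zero] at hrw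
    exact hwz (by rw [dist_comm]; exact hrw)
  have hsub := hd r hr0 hr
  set x := z + r * (Complex.I * cis t) with hx
  -- a colour of `Pal w` : `x` is not in its set
  have hno : ∀ i ∈ Pal U w, x ∉ U i := fun i hi hxi => h.mx.notMem' hxi hrw hi
  have hno' : ∀ i, w ∈ U i → i ∉ T x := fun i hwi hxi =>
    h.mx.notMem' hwi (by rw [dist_comm]; exact hrw) (h.sub x hxi)
  refine ⟨fun hwp hq => ?_, fun hwq hp => ?_, fun h3 hp hq => ?_⟩
  · refine hno q (h.sub w hq) (h.mem_of_single fun i hi => ?_)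
    rcases hsub hi with rfl | h5
    · exact absurd hi (hno' _ hwp)
    · exact h5
  · refine hno p (h.sub w hp) (h.mem_of_single fun i hi => ?_)
    rcases hsub hi with h5 | h5
    · exact h5
    · rw [mem_singleton_iff] at h5
      subst h5
      exact absurd hi (hno' _ hwq)
  · refine h.not_sub (x := w) (y := x) hrw h3 fun i hi => ?_
    rcases hsub hi with rfl | h5
    · exact hp
    · rw [mem_singleton_iff] at h5
      subst h5
      exact hq

/-- near the unit circle: polar coordinates -/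
theorem polar_near {z : ℂ} {θ : ℝ} {δ : ℝ} (hδ : 0 < δ) :
    ∀ᶠ g in 𝓝 (z + cis θ), ∃ ρ s : ℝ, |ρ - 1| < δ ∧ |s - θ| < δ ∧ g = z + ρ * cis s := by
  have hc1 : ContinuousAt (fun g : ℂ => ‖(g - z) / cis θ‖) (z + cis θ) := by
    have hne : cis θ ≠ 0 := by
      intro h0
      have := norm_cis θ
      rw [h0, norm_zero] at this
      exact zero_ne_one this
    fun_prop
  have hne : cis θ ≠ 0 := by
    intro h0
    have := norm_cis θ
    rw [h0, norm_zero] at this
    exact zero_ne_one this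
  have e1 : (z + cis θ - z) / cis θ = 1 := by rw [add_sub_cancel_left, div_self hne]
  have hc2 : ContinuousAt (fun g : ℂ => Complex.arg ((g - z) / cis θ)) (z + cis θ) := by
    have h1 : ContinuousAt Complex.arg ((z + cis θ - z) / cis θ) := by
      rw [e1]
      exact Complex.continuousAt_arg (by simp [Complex.mem_slitPlane_iff])
    have h2 : ContinuousAt (fun g : ℂ => (g - z) / cis θ) (z + cis θ) := by fun_prop
    exact ContinuousAt.comp (g := Complex.arg) (f := fun g : ℂ => (g - z) / cis θ) h1 h2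
  have h1 : ∀ᶠ g in 𝓝 (z + cis θ), |‖(g - z) / cis θ‖ - 1| < δ := by
    have := hc1.eventually (Metric.ball_mem_nhds _ hδ)
    simp only [e1, norm_one] at this
    filter_upwards [this] with g hg
    rwa [Real.dist_eq] at hg
  have h2 : ∀ᶠ g in 𝓝 (z + cis θ), |Complex.arg ((g - z) / cis θ)| < δ := by
    have := hc2.eventually (Metric.ball_mem_nhds _ hδ)
    simp only [e1, Complex.arg_one] at this
    filter_upwards [this] with g hg
    rwa [Real.dist_eq, sub_zero] at hg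
  filter_upwards [h1, h2] with g hg1 hg2
  refine ⟨‖(g - z) / cis θ‖, θ + Complex.arg ((g - z) / cis θ), hg1, ?_, ?_⟩
  · rwa [add_sub_cancel_left]
  · have h3 := Complex.norm_mul_exp_arg_mul_I ((g - z) / cis θ)
    have h4 : cis (θ + Complex.arg ((g - z) / cis θ)) =
        cis θ * Complex.exp (Complex.arg ((g - z) / cis θ) * Complex.I) := by
      unfold cis
      push_cast
      rw [add_mul, Complex.exp_add]
    rw [h4, mul_left_comm, h3, mul_div_cancel₀ _ hne]
    ring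

/-- **Spreading**: if near the point `z + cis θ` of the circle, off the circle, `U s` and `s` meet no
other colour, and `s` is in the closure there, then `s` is in the palettes of the circle near by. -/
theorem Irr.spread (h : Irr U T) {z : ℂ} {s : Fin k} (hs : s ∈ T z) {θ : ℝ}
    (hoff : ∀ᶠ w in 𝓝 (z + cis θ), dist w z ≠ 1 → ∀ a, a ≠ s → a ∈ T w → w ∉ U s ∧ s ∉ T w)
    (hθ : s ∈ Pal U (z + cis θ)) : ∀ᶠ t in 𝓝 θ, s ∈ T (z + cis t) := by
  obtain ⟨N, hN, hNo, hyN⟩ := _root_.mem_nhds_iff.1 hoff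
  have hf : Continuous fun a : ℝ × ℝ => z + (a.1 : ℂ) * cis a.2 :=
    continuous_const.add ((Complex.continuous_ofReal.comp continuous_fst).mul
      (continuous_cis.comp continuous_snd))
  have hf0 : (fun a : ℝ × ℝ => z + (a.1 : ℂ) * cis a.2) (1, θ) = z + cis θ := by simp
  have h1 : ∀ᶠ a in 𝓝 ((1 : ℝ), θ), z + (a.1 : ℂ) * cis a.2 ∈ N := by
    refine hf.continuousAt.preimage_mem_nhds ?_
    have h2 := hNo.mem_nhds hyN
    rw [← hf0] at h2
    exact h2
  obtain ⟨δ, hδ, hball⟩ := Metric.eventually_nhds_iff.1 h1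
  have hin : ∀ ρ t : ℝ, |ρ - 1| < δ → |t - θ| < δ → z + (ρ : ℂ) * cis t ∈ N := by
    intro ρ t h2 h3
    refine hball (y := (ρ, t)) ?_
    rw [Prod.dist_eq]
    exact max_lt (by rw [Real.dist_eq]; exact h2) (by rw [Real.dist_eq]; exact h3)
  set δ' := min δ 1 with hδ'
  have hδ'0 : 0 < δ' := lt_min hδ one_pos
  have hδ'δ : δ' ≤ δ := min_le_left _ _
  have hδ'1 : δ' ≤ 1 := min_le_right _ _
  obtain ⟨g, ⟨ρ0, s0, hρ0, hs0, hg⟩, hgU⟩ :=
    mem_closure_iff_nhds.1 hθ _ (polar_near (z := z) (θ := θ) hδ'0)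
  have hdist : ∀ ρ t : ℝ, 0 < ρ → dist (z + (ρ : ℂ) * cis t) z = ρ := by
    intro ρ t hρ
    rw [dist_eq_norm, add_sub_cancel_left, norm_mul, norm_cis, mul_one, Complex.norm_real,
      Real.norm_eq_abs, abs_of_pos hρ]
  have hρ0' := abs_lt.1 hρ0
  have hρne : ρ0 ≠ 1 := by
    intro h2
    have h3 : dist g z = 1 := by rw [hg, hdist ρ0 s0 (by linarith), h2]
    exact h.mx.notMem' hgU h3 (h.sub z hs)
  -- the half rectangle
  obtain ⟨I, hIc, hIρ, hI1, hIδ, hIcl⟩ : ∃ I : Set ℝ, IsPreconnected I ∧ ρ0 ∈ I ∧ (1 : ℝ) ∉ I ∧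
      (∀ ρ ∈ I, |ρ - 1| < δ') ∧ (1 : ℝ) ∈ closure I := by
    rcases lt_or_gt_of_ne hρne with h2 | h2
    · refine ⟨Ioo (1 - δ') 1, isPreconnected_Ioo, ⟨by linarith, h2⟩, fun h3 => lt_irrefl _ h3.2,
        fun ρ hρ => ?_, ?_⟩
      · rw [abs_lt]; exact ⟨by linarith [hρ.1], by linarith [hρ.2]⟩
      · rw [closure_Ioo (by linarith)]; exact ⟨by linarith, le_rfl⟩
    · refine ⟨Ioo 1 (1 + δ'), isPreconnected_Ioo, ⟨h2, by linarith⟩, fun h3 => lt_irrefl _ h3.1,
        fun ρ hρ => ?_, ?_⟩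
      · rw [abs_lt]; exact ⟨by linarith [hρ.1], by linarith [hρ.2]⟩
      · rw [closure_Ioo (by linarith)]; exact ⟨le_rfl, by linarith⟩
  set f : ℝ × ℝ → ℂ := fun a => z + (a.1 : ℂ) * cis a.2 with hfdef
  set R : Set (ℝ × ℝ) := I ×ˢ Ioo (θ - δ') (θ + δ') with hR
  have hRc : IsPreconnected R := hIc.prod isPreconnected_Ioo
  have hRN : ∀ a ∈ R, f a ∈ N ∧ dist (f a) z ≠ 1 := by
    intro a ha
    have h2 := hIδ a.1 ha.1
    have h3 := abs_lt.1 h2
    refine ⟨hin a.1 a.2 (by linarith) ?_, ?_⟩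
    · rw [abs_lt]; exact ⟨by linarith [ha.2.1], by linarith [ha.2.2]⟩
    · rw [hdist a.1 a.2 (by linarith)]
      intro h4
      exact hI1 (h4 ▸ ha.1)
  have hRall : ∀ a ∈ R, ∀ b, b ≠ s → b ∈ T (f a) → f a ∉ U s ∧ s ∉ T (f a) := fun a ha =>
    hN (hRN a ha).1 (hRN a ha).2
  have hcov : R ⊆ f ⁻¹' U s ∪ f ⁻¹' {x | s ∈ T x}ᶜ := by
    intro a ha
    by_cases h2 : s ∈ T (f a)
    · left
      refine h.mem_of_single fun b hb => ?_
      by_contra hbs
      exact (hRall a ha b hbs hb).2 h2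
    · exact Or.inr h2
  have hdisj : R ∩ (f ⁻¹' U s ∩ f ⁻¹' {x | s ∈ T x}ᶜ) = ∅ := by
    rw [Set.eq_empty_iff_forall_notMem]
    rintro a ⟨ha, h2, h3⟩
    have h3 : s ∉ T (f a) := h3
    obtain ⟨b, hb⟩ := h.ne (f a)
    have hbs : b ≠ s := fun h6 => h3 (h6 ▸ hb)
    exact (hRall a ha b hbs hb).1 h2
  have hRU : R ⊆ f ⁻¹' U s := by
    rcases isPreconnected_iff_subset_of_disjoint.1 hRc (f ⁻¹' U s) (f ⁻¹' {x | s ∈ T x}ᶜ)
      ((h.mx.isOpen s).preimage hf) ((h.closed s).isOpen_compl.preimage hf) hcov hdisj with h2 | h2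
    · exact h2
    · exfalso
      have h3 : (ρ0, s0) ∈ R := ⟨hIρ, by
        have := abs_lt.1 hs0
        constructor <;> simp only <;> linarith⟩
      have h4 : s ∉ T (f (ρ0, s0)) := h2 h3
      have h5 : f (ρ0, s0) ∈ U s := by
        have : f (ρ0, s0) = g := by rw [hg]
        rw [this]; exact hgU
      obtain ⟨b, hb⟩ := h.ne (f (ρ0, s0))
      have hbs : b ≠ s := fun h6 => h4 (h6 ▸ hb)
      exact (hRall _ h3 b hbs hb).1 h5
  have hRT : ∀ a ∈ R, s ∈ T (f a) := by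
    intro a ha
    by_contra h2
    obtain ⟨b, hb⟩ := h.ne (f a)
    have hbs : b ≠ s := fun h6 => h2 (h6 ▸ hb)
    exact (hRall a ha b hbs hb).1 (hRU ha)
  have hnh : Ioo (θ - δ') (θ + δ') ∈ 𝓝 θ := Ioo_mem_nhds (by linarith) (by linarith)
  filter_upwards [hnh] with t ht
  have hcl : IsClosed {ρ : ℝ | s ∈ T (z + (ρ : ℂ) * cis t)} := by
    have hc : Continuous fun ρ : ℝ => z + (ρ : ℂ) * cis t := by fun_prop
    exact (h.closed s).preimage hc
  have hsub : I ⊆ {ρ : ℝ | s ∈ T (z + (ρ : ℂ) * cis t)} := fun ρ hρ => hRT (ρ, t) ⟨hρ, ht⟩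
  have h2 := hcl.closure_subset_iff.2 hsub hIcl
  have h3 : s ∈ T (z + ((1 : ℝ) : ℂ) * cis t) := h2
  rwa [Complex.ofReal_one, one_mul] at h3

/-- **No silent colour**: a colour `s` which is left over together with every other colour is in
every palette of the circle. -/
theorem Irr.no_silent (h : Irr U T) {z : ℂ} (hz : z ∈ XX U) {s : Fin k} (hs : s ∈ T z)
    (hcl : ∀ y, dist y z = 1 → (T y).ncard ≤ 3)
    (hL : ∀ a, a ≠ s → ∃ t0, Left2 U T z s a t0) : ∀ y, dist y z = 1 → s ∈ T y := by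
  have hoff : ∀ θ : ℝ, ∀ᶠ w in 𝓝 (z + cis θ), dist w z ≠ 1 → ∀ a, a ≠ s → a ∈ T w →
      w ∉ U s ∧ s ∉ T w := by
    intro θ
    have hy0 : dist (z + cis θ) z = 1 := dist_add_cis z θ
    have e1 : ∀ a : Fin k, ∀ᶠ w in 𝓝 (z + cis θ), a ≠ s → dist w z ≠ 1 →
        (w ∈ U s → a ∉ T w) ∧ ((T w).ncard ≤ 3 → s ∈ T w → a ∉ T w) := by
      intro a
      by_cases ha : a = s
      · exact Eventually.of_forall fun w h1 => absurd ha h1
      · obtain ⟨t0, ht0⟩ := hL a ha
        filter_upwards [h.left_near ht0 hy0] with w hw _ hwz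
        exact ⟨(hw hwz).1, (hw hwz).2.2⟩
    filter_upwards [eventually_all.2 e1, h.nhd (z + cis θ)] with w hw hsub hwz a ha haw
    have h3 : (T w).ncard ≤ 3 := (Set.ncard_le_ncard hsub (Set.toFinite _)).trans (hcl _ hy0)
    exact ⟨fun h4 => (hw a ha hwz).1 h4 haw, fun h4 => (hw a ha hwz).2 h3 h4 haw⟩
  have hstep : ∀ θ : ℝ, s ∈ Pal U (z + cis θ) → ∀ᶠ t in 𝓝 θ, s ∈ T (z + cis t) := fun θ hθ =>
    h.spread hs (hoff θ) hθ
  set Y : Set ℝ := {θ | s ∈ Pal U (z + cis θ)} with hY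
  have hYc : IsClosed Y :=
    isClosed_closure.preimage (continuous_const.add continuous_cis)
  have hYo : IsOpen Y := by
    rw [isOpen_iff_mem_nhds]
    intro θ hθ
    filter_upwards [hstep θ hθ] with t ht
    exact h.sub _ ht
  have hYne : Y.Nonempty := by
    obtain ⟨y, hy, hsy⟩ := h.partner_XX hz s
    obtain ⟨θ, hθ⟩ := exists_cis (u := y - z) (by rw [← dist_eq_norm, dist_comm]; exact hy)
    exact ⟨θ, by
      have : z + cis θ = y := by rw [← hθ]; ring
      show s ∈ Pal U (z + cis θ)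
      rw [this]; exact hsy⟩
  have hYu : Y = univ := IsClopen.eq_univ ⟨hYc, hYo⟩ hYne
  intro y hy
  obtain ⟨θ, hθ⟩ := exists_cis (u := y - z) (by rw [← dist_eq_norm]; exact hy)
  have e : z + cis θ = y := by rw [← hθ]; ring
  rw [← e]
  have h1 : θ ∈ Y := by rw [hYu]; exact mem_univ _
  exact (hstep θ h1).self_of_nhds

end Vale.Agent.P032.Six
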