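import Vale.Agent.P032.H396.Event
import Vale.Agent.P032.H469.Parity
import Vale.Agent.P032.Words6.H46.Rules
import Vale.Agent.P032.Words6.H704.Start

/-!
# P032: a clean point with six colours has no silent colour

`exists_left` : for a silent colour `s` and every `a ≠ s` there is a generic direction at which
`s`, `a` are the left-over colours of two antipodal arcs.
`no_silent_six` : no silent colour.

Proof: selections of broken pairs at generic times without a left-over `a` have a parity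
(`H469.f1`, `H469.f2`) which is locally constant and changes under the turn by 60 degrees; at a
switch time the event lemma `no_event` applies.
-/

open Set Filter Topology Metric

noncomputable section

namespace Vale.Agent.P032.H396

open Vale.Agent.P032.Six Vale.Agent.P032.S5.H767 Vale.Agent.P032.Words6.H704

variable {U : Fin 6 → Set ℂ} {T : ℂ → Set (Fin 6)} {z : ℂ} {s a : Fin 6}

/-- a selection without left-over is a column -/
theorem col_of_sel (C : Six6 U T z) (ha : ¬ ∃ t0, Left2 U T z s a t0) {u : ℝ} (hu : Gn T z u)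
    {h : Fin 6 → Set (Fin 6)} (hS : Sel T z u h) : H469.Col (Six.MC T z) s a h := by
  refine ⟨fun k => ?_, fun k => ?_, fun k hk => ha ?_⟩
  · obtain ⟨x, y, hxy, hk⟩ := (hS k).1
    exact ⟨x, y, hxy.1, hxy, hk⟩
  · have h1 := C.disj (u := u + (k.val : ℝ)) (hu k)
    refine h1.mono (hS k).2 ?_
    have h2 := (hS (k + 1)).2
    rwa [pt_fin] at h2
  · have hp : 0 < Real.pi / 3 := by positivity
    obtain ⟨δ1, hδ1, hb1⟩ := Metric.eventually_nhds_iff.1 (hu k)
    obtain ⟨δ2, hδ2, hb2⟩ := Metric.eventually_nhds_iff.1 (hu (k + 3))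
    refine ⟨(u + (k.val : ℝ)) * (Real.pi / 3), h k, h (k + 3), fun i _ => hk (mem_univ i),
      min δ1 δ2 * (Real.pi / 3), mul_pos (lt_min hδ1 hδ2) hp, fun t ht => ?_, fun t ht => ?_⟩
    all_goals
      obtain ⟨v, rfl⟩ : ∃ v : ℝ, t = (v + (k.val : ℝ)) * (Real.pi / 3) :=
        ⟨t / (Real.pi / 3) - (k.val : ℝ), by rw [sub_add_cancel, div_mul_cancel₀ _ hp.ne']⟩
      rw [show (v + (k.val : ℝ)) * (Real.pi / 3) - (u + (k.val : ℝ)) * (Real.pi / 3) =
        (v - u) * (Real.pi / 3) by ring, abs_mul, abs_of_pos hp] at ht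
      have ht' := lt_of_mul_lt_mul_right ht hp.le
    · have h3 : T (pt z (v + (k.val : ℝ))) = T (pt z (u + (k.val : ℝ))) := hb1 (by
        rw [Real.dist_eq, show v + (k.val : ℝ) - (u + (k.val : ℝ)) = v - u by ring]
        exact lt_of_lt_of_le ht' (min_le_left _ _))
      have h4 := (hS k).2
      rw [← h3] at h4
      exact h4.trans (C.irr.sub _)
    · have h3 : T (pt z (v + ((k + 3).val : ℝ))) = T (pt z (u + ((k + 3).val : ℝ))) := hb2 (by
        rw [Real.dist_eq, show v + ((k + 3).val : ℝ) - (u + ((k + 3).val : ℝ)) = v - u by ring]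
        exact lt_of_lt_of_le ht' (min_le_right _ _))
      have h4 := (hS (k + 3)).2
      rw [← h3] at h4
      have h5 := h4.trans (C.irr.sub _)
      rw [pt_anti] at h5
      rw [cis_add_pi]
      exact h5

/-- the contact graph of a clean point with a silent colour -/
theorem mc_struct (C : Six6 U T z) (hmn : ∀ z, 4 ≤ (T z).ncard → ∀ s, s ⊆ T z → s ≠ T z →
      ¬ ∀ᶠ w in 𝓝 z, ∃ i ∈ s, w ∈ U i ∨ (w ∈ XX U ∧ i ∈ Pal U w))
    (hs : ∀ q, dist q z = 1 → s ∈ T q → (T q).ncard ≠ 2) : H469.MC (Six.MC T z) s := by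
  refine ⟨fun x y h => ?_, fun x h => h.1 rfl, fun x h => ?_, fun X Y hX hY hd h5 =>
    C.mc_cut hmn X Y hX hY hd h5⟩
  · obtain ⟨hne, q, hq, hTq⟩ := h
    exact ⟨hne.symm, q, hq, by rw [hTq, Set.pair_comm]⟩
  obtain ⟨hne, q, hq, hTq⟩ := h
  refine hs q hq (by rw [hTq]; exact Or.inl rfl) ?_
  rw [hTq]; exact Set.ncard_pair hne

/-- columns have no silent colour -/
theorem col_silent {M : Fin 6 → Fin 6 → Prop} (hM : H469.MC M s) {h : Fin 6 → Set (Fin 6)}
    (hc : H469.Col M s a h) (k : Fin 6) : s ∉ h k := by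
  obtain ⟨x, y, -, hxy, hk⟩ := hc.1 k
  rw [hk]
  rintro (rfl | h1)
  · exact hM.sil _ hxy
  · rw [mem_singleton_iff] at h1
    subst h1
    exact hM.sil _ (hM.symm _ _ hxy)

theorem col_card {M : Fin 6 → Fin 6 → Prop} {h : Fin 6 → Set (Fin 6)}
    (hc : H469.Col M s a h) (k : Fin 6) : (h k).ncard = 2 := by
  obtain ⟨x, y, hne, -, hk⟩ := hc.1 k
  rw [hk]; exact Set.ncard_pair hne

/-- the union of two different pairs has at least three colours -/
theorem three_of_ne {A B : Set (Fin 6)} (hA : A.ncard = 2) (hB : B.ncard = 2) (hne : A ≠ B) :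
    3 ≤ (A ∪ B).ncard := by
  by_contra hcon
  have h1 : A = A ∪ B := Set.eq_of_subset_of_ncard_le subset_union_left (by omega) (Set.toFinite _)
  have h2 : B = A ∪ B := Set.eq_of_subset_of_ncard_le subset_union_right (by omega) (Set.toFinite _)
  exact hne (h1.trans h2.symm)

/-- at a generic time all selections have the same parity -/
theorem par_unique (C : Six6 U T z) (hM : H469.MC (Six.MC T z) s) (has : a ≠ s)
    (ha : ¬ ∃ t0, Left2 U T z s a t0) {u : ℝ} (hu : Gn T z u) {h h' : Fin 6 → Set (Fin 6)}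
    (hS : Sel T z u h) (hS' : Sel T z u h') (hp : H469.par a h) : H469.par a h' := by
  by_contra hp'
  have hc := col_of_sel C ha hu hS
  have hc' := col_of_sel C ha hu hS'
  have hd : ∀ k : Fin 6, Disjoint (h k ∪ h' k) (h (k + 1) ∪ h' (k + 1)) := by
    intro k
    have h1 := C.disj (u := u + (k.val : ℝ)) (hu k)
    rw [← pt_fin] at h1
    exact h1.mono (union_subset (hS k).2 (hS' k).2) (union_subset (hS (k + 1)).2 (hS' (k + 1)).2)
  have h3 : ∀ k : Fin 6, (h k ∪ h' k).ncard ≤ 3 := fun k =>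
    (Set.ncard_le_ncard (union_subset (hS k).2 (hS' k).2) (Set.toFinite _)).trans
      (C.clean _ (dist_pt z _))
  have h1 := H469.f2 hM has hc hc' (fun h4 => hp' (h4.1 hp)) h3 fun k => by
    rw [Set.disjoint_iff_inter_eq_empty.1 (hd k), Set.ncard_empty]; omega
  -- two disjoint triples in five colours
  have h5 := three_of_ne (col_card hc 0) (col_card hc' 0) (h1.1 0)
  have h6 := three_of_ne (col_card hc 1) (col_card hc' 1) (h1.1 1)
  have h7 : ((h 0 ∪ h' 0) ∪ (h 1 ∪ h' 1)).ncard ≤ 5 := by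
    have h8 : (h 0 ∪ h' 0) ∪ (h 1 ∪ h' 1) ⊆ ({s} : Set (Fin 6))ᶜ := by
      rintro i hi (rfl : i = s)
      rcases hi with (hi | hi) | (hi | hi)
      · exact col_silent hM hc _ hi
      · exact col_silent hM hc' _ hi
      · exact col_silent hM hc _ hi
      · exact col_silent hM hc' _ hi
    have h9 := Set.ncard_le_ncard h8 (Set.toFinite _)
    have h10 := Set.ncard_add_ncard_compl ({s} : Set (Fin 6))
    rw [Nat.card_eq_fintype_card, Fintype.card_fin, Set.ncard_singleton] at h10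
    omega
  have hd0 : Disjoint (h 0 ∪ h' 0) (h 1 ∪ h' 1) := hd 0
  rw [Set.ncard_union_eq hd0 (Set.toFinite _) (Set.toFinite _)] at h7
  omega

/-- generic times with even columns -/
def EvT (T : ℂ → Set (Fin 6)) (z : ℂ) (a : Fin 6) : Set ℝ :=
  {u | Gn T z u ∧ ∃ h, Sel T z u h ∧ H469.par a h}

/-- selections are constant near a generic time -/
theorem sel_near {u : ℝ} (hu : Gn T z u) : ∀ᶠ v in 𝓝 u, Gn T z v ∧
    ∀ k : Fin 6, T (pt z (v + (k.val : ℝ))) = T (pt z (u + (k.val : ℝ))) := by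
  have h1 : ∀ᶠ v in 𝓝 u, Gn T z v := gn_open.mem_nhds hu
  have h2 : ∀ᶠ v in 𝓝 u, ∀ k : Fin 6,
      T (pt z (v + (k.val : ℝ))) = T (pt z (u + (k.val : ℝ))) := by
    rw [eventually_all]
    intro k
    have hc : Tendsto (fun v : ℝ => v + (k.val : ℝ)) (𝓝 u) (𝓝 (u + (k.val : ℝ))) := by
      have : Continuous fun v : ℝ => v + (k.val : ℝ) := by fun_prop
      exact this.tendsto u
    exact hc.eventually (hu k)
  exact h1.and h2

/-- the switch time -/
theorem exists_switch (C : Six6 U T z) (hM : H469.MC (Six.MC T z) s) (has : a ≠ s)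
    (ha : ¬ ∃ t0, Left2 U T z s a t0) : ∃ m η : ℝ, 0 < η ∧
      (∀ v, m - η < v → v < m → Gn T z v → v ∈ EvT T z a) ∧
      ∀ ε > 0, ∃ v, m < v ∧ v < m + ε ∧ Gn T z v ∧ v ∉ EvT T z a := by
  -- a start
  obtain ⟨ua, hua⟩ : ∃ ua, ua ∈ EvT T z a := by
    obtain ⟨u, hu⟩ := C.gn_dense.nonempty
    have hu : Gn T z u := hu
    obtain ⟨h, hS⟩ := C.exists_sel u
    by_cases hp : H469.par a h
    · exact ⟨u, hu, h, hS, hp⟩
    · refine ⟨u + 1, hu.shift, fun k => h (k + 1), fun k => ⟨(hS (k + 1)).1, ?_⟩,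
        (H469.f1 hM has (col_of_sel C ha hu hS)).2 hp⟩
      have h2 := (hS (k + 1)).2
      rw [pt_fin] at h2
      rwa [show u + 1 + (k.val : ℝ) = u + (k.val : ℝ) + 1 by ring]
  have hshift : ua + 1 ∉ EvT T z a := by
    rintro ⟨hg, h', hS', hp'⟩
    obtain ⟨hu, h, hS, hp⟩ := hua
    have hS2 : Sel T z (ua + 1) fun k => h (k + 1) := by
      intro k
      refine ⟨(hS (k + 1)).1, ?_⟩
      have h2 := (hS (k + 1)).2
      rw [pt_fin] at h2
      rwa [show ua + 1 + (k.val : ℝ) = ua + (k.val : ℝ) + 1 by ring]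
    exact (H469.f1 hM has (col_of_sel C ha hu hS)).1 (par_unique C hM has ha hg hS' hS2 hp') hp
  have hopen : ∀ u ∈ EvT T z a, ∀ᶠ v in 𝓝 u, v ∈ EvT T z a := by
    rintro u ⟨hu, h, hS, hp⟩
    filter_upwards [sel_near hu] with v hv
    exact ⟨hv.1, h, fun k => ⟨(hS k).1, by rw [hv.2 k]; exact (hS k).2⟩, hp⟩
  have hopen' : ∀ u, Gn T z u → u ∉ EvT T z a → ∀ᶠ v in 𝓝 u, v ∉ EvT T z a := by
    intro u hu hn
    filter_upwards [sel_near hu] with v hv hvE
    obtain ⟨-, h, hS, hp⟩ := hvE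
    exact hn ⟨hu, h, fun k => ⟨(hS k).1, by rw [← hv.2 k]; exact (hS k).2⟩, hp⟩
  set S : Set ℝ := {v | ua ≤ v ∧ ∀ w, ua ≤ w → w ≤ v → Gn T z w → w ∈ EvT T z a} with hSd
  have hSne : S.Nonempty := ⟨ua, le_rfl, fun w h1 h2 _ => by
    rw [le_antisymm h2 h1]; exact hua⟩
  have hSb : ∀ v ∈ S, v ≤ ua + 1 := by
    rintro v ⟨h1, h2⟩
    by_contra hcon
    push Not at hcon
    exact hshift (h2 (ua + 1) (by linarith) hcon.le hua.1.shift)
  have hbdd : BddAbove S := ⟨ua + 1, hSb⟩
  set m := sSup S with hm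
  have hleft : ∀ w, ua ≤ w → w < m → Gn T z w → w ∈ EvT T z a := by
    intro w h1 h2 hw
    obtain ⟨v, hv, hwv⟩ := exists_lt_of_lt_csSup hSne h2
    exact hv.2 w h1 hwv.le hw
  have hum : ua < m := by
    obtain ⟨δ, hδ, hball⟩ := Metric.eventually_nhds_iff.1 (hopen ua hua)
    have h1 : ua + δ / 2 ∈ S := by
      refine ⟨by linarith, fun w h1 h2 _ => hball ?_⟩
      rw [Real.dist_eq, abs_of_nonneg (by linarith)]; linarith
    have := le_csSup hbdd h1
    linarith
  refine ⟨m, m - ua, by linarith, fun v h1 h2 h3 => hleft v (by linarith) h2 h3, fun ε hε => ?_⟩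
  by_contra hcon
  push Not at hcon
  have h1 : m + ε / 2 ∈ S := by
    refine ⟨by linarith, fun w h1 h2 hw => ?_⟩
    rcases lt_trichotomy w m with h3 | h3 | h3
    · exact hleft w h1 h3 hw
    · by_contra hwE
      -- generic points on the left of `m`
      obtain ⟨δ, hδ, hball⟩ := Metric.eventually_nhds_iff.1 (hopen' w hw hwE)
      obtain ⟨v, hv1, hv2⟩ := C.gn_dense.exists_between
        (show Max.max ua (m - δ) < m from max_lt hum (by linarith))
      have h4 := le_max_left ua (m - δ)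
      have h5 := le_max_right ua (m - δ)
      refine hball (y := v) ?_ (hleft v (by linarith [hv2.1]) hv2.2 hv1)
      rw [h3, Real.dist_eq, abs_lt]
      constructor <;> linarith [hv2.1, hv2.2]
    · exact hcon w h3 (by linarith) hw
  have := le_csSup hbdd h1
  linarith

/-- **Left-over directions exist.** -/
theorem exists_left (C : Six6 U T z) (hmn : ∀ z, 4 ≤ (T z).ncard → ∀ s, s ⊆ T z → s ≠ T z →
      ¬ ∀ᶠ w in 𝓝 z, ∃ i ∈ s, w ∈ U i ∨ (w ∈ XX U ∧ i ∈ Pal U w))
    (hs : ∀ q, dist q z = 1 → s ∈ T q → (T q).ncard ≠ 2) (has : a ≠ s) :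
    ∃ t0, Left2 U T z s a t0 := by
  by_contra ha
  have hM := mc_struct C hmn hs
  obtain ⟨m, η, hη, hL, hR⟩ := exists_switch C hM has ha
  -- palettes near the switch time
  have hnear : ∀ᶠ v in 𝓝 m, ∀ k : Fin 6, T (pt z (v + (k.val : ℝ))) ⊆
      T (pt z (m + (k.val : ℝ))) := by
    rw [eventually_all]
    intro k
    have hc : Continuous fun v : ℝ => pt z (v + (k.val : ℝ)) :=
      (continuous_pt z).comp (by fun_prop)
    exact (hc.tendsto m).eventually (C.irr.nhd _)
  obtain ⟨δ, hδ, hball⟩ := Metric.eventually_nhds_iff.1 hnear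
  set e := min η δ with he
  have he0 : 0 < e := lt_min hη hδ
  have heη : e ≤ η := min_le_left _ _
  have heδ : e ≤ δ := min_le_right _ _
  have hnr : ∀ v, |v - m| < e → ∀ k : Fin 6, T (pt z (v + (k.val : ℝ))) ⊆
      T (pt z (m + (k.val : ℝ))) := fun v hv =>
    hball (by rw [Real.dist_eq]; exact lt_of_lt_of_le hv heδ)
  -- the two columns
  obtain ⟨v1, hv1, hv1'⟩ := C.gn_dense.exists_between (show m - e < m by linarith)
  have hv1 : Gn T z v1 := hv1
  obtain ⟨-, h, hS, hp⟩ := hL v1 (by linarith [hv1'.1]) hv1'.2 hv1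
  obtain ⟨v2, hv2, hv2', hg2, hnE⟩ := hR e he0
  obtain ⟨h', hS'⟩ := C.exists_sel v2
  have hp' : ¬ H469.par a h' := fun h1 => hnE ⟨hg2, h', hS', h1⟩
  have hc := col_of_sel C ha hv1 hS
  have hc' := col_of_sel C ha hg2 hS'
  have hsub : ∀ k : Fin 6, h k ∪ h' k ⊆ T (pt z (m + (k.val : ℝ))) := fun k =>
    union_subset ((hS k).2.trans (hnr v1 (by
      rw [abs_lt]; constructor <;> linarith [hv1'.1, hv1'.2]) k))
      ((hS' k).2.trans (hnr v2 (by rw [abs_lt]; constructor <;> linarith) k))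
  have hclean : ∀ k : Fin 6, (T (pt z (m + (k.val : ℝ)))).ncard ≤ 3 := fun k =>
    C.clean _ (dist_pt z _)
  obtain ⟨hne, hray⟩ := H469.f2 hM has hc hc' (fun h1 => hp' (h1.1 hp))
    (fun k => (Set.ncard_le_ncard (hsub k) (Set.toFinite _)).trans (hclean k)) (fun k => by
      have h1 := Words6.H46.nb_one C (m + (k.val : ℝ))
      rw [← pt_fin] at h1
      exact (Set.ncard_le_ncard (inter_subset_inter (hsub k) (hsub (k + 1)))
        (Set.toFinite _)).trans h1)
  have hτ : ∀ k : Fin 6, h k ∪ h' k = T (pt z (m + (k.val : ℝ))) := fun k =>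
    Set.eq_of_subset_of_ncard_le (hsub k)
      ((hclean k).trans (three_of_ne (col_card hc k) (col_card hc' k) (hne k))) (Set.toFinite _)
  -- generic columns near the switch time
  have hgen : ∀ v, |v - m| < e → Gn T z v → ∀ g, Sel T z v g → H469.Col (Six.MC T z) s a g ∧
      ∀ i, g i ⊆ h i ∪ h' i := by
    intro v hv hg g hSg
    refine ⟨col_of_sel C ha hg hSg, fun i => ?_⟩
    rw [hτ]
    exact (hSg i).2.trans (hnr v hv i)
  have hgenL : ∀ v, m - e < v → v < m → Gn T z v → ∀ g, Sel T z v g →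
      (H469.par a g ↔ H469.par a h) := by
    intro v h1 h2 hg g hSg
    obtain ⟨-, g', hSg', hpg'⟩ := hL v (by linarith) h2 hg
    have h3 := par_unique C hM has ha hg hSg' hSg hpg'
    exact ⟨fun _ => hp, fun _ => h3⟩
  -- the constant letters before the switch
  have hQ : ∀ k : Fin 6, (∀ g, H469.Col (Six.MC T z) s a g → (∀ i, g i ⊆ h i ∪ h' i) →
      (H469.par a g ↔ H469.par a h) → g (k + 3) = h (k + 3)) →
      ∀ t, m - e < t → t < m → h (k + 3) ⊆ Pal U (pt z (t + ((k + 3).val : ℝ))) := by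
    intro k hk t h1 h2
    refine Subset.trans ?_ (C.irr.sub _)
    intro i hi
    have hcl : IsClosed {t : ℝ | i ∈ T (pt z (t + ((k + 3).val : ℝ)))} :=
      (C.irr.closed i).preimage ((continuous_pt z).comp (by fun_prop))
    have h3 : t ∈ closure {t : ℝ | i ∈ T (pt z (t + ((k + 3).val : ℝ)))} := by
      rw [mem_closure_iff_nhds]
      intro N hN
      have h4 := mem_closure_iff_nhds.1 (C.gn_dense t) (N ∩ Ioo (m - e) m)
        (inter_mem hN (Ioo_mem_nhds h1 h2))
      obtain ⟨v, ⟨hvN, hvI⟩, hvg⟩ := h4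
      have hvg : Gn T z v := hvg
      obtain ⟨g, hg⟩ := C.exists_sel v
      have h5 := hgen v (by rw [abs_lt]; constructor <;> linarith [hvI.1, hvI.2]) hvg g hg
      have h6 := hk g h5.1 h5.2 (hgenL v hvI.1 hvI.2 hvg g hg)
      refine ⟨v, hvN, ?_⟩
      show i ∈ T (pt z (v + ((k + 3).val : ℝ)))
      exact (hg (k + 3)).2 (h6 ▸ hi)
    exact hcl.closure_subset h3
  -- the two kinds of rays
  have hDr : ∀ k : Fin 6, H469.Dr (Six.MC T z) s a h h' k → Kill U z s (m + (k.val : ℝ)) := by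
    rintro k ⟨hk1, hk2⟩
    refine Six6.kill_direct C k he0 (hQ k hk1) fun i => ?_
    rw [← hτ]
    rcases hk2 (mem_univ i) with (h1 | h1) | h1
    · exact Or.inl h1
    · exact Or.inr (Or.inl h1)
    · exact Or.inr (Or.inr h1)
  have hWr : ∀ k : Fin 6, H469.Wr (Six.MC T z) s a h h' k → Kill U z s (m + (k.val : ℝ)) := by
    rintro k ⟨hk1, hk2, c, c', hcc, hMc, -, h1, h2, h3, h4, h5, h6⟩
    refine Six6.kill_window C k (A := h k) (B := h' k) (Q := h (k + 3)) (c := c) (c' := c') he0 ?_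
      (col_card hc k) (col_card hc' k) (col_card hc _) (col_silent hM hc _)
      (col_silent hM hc' _) (hQ k hk1) ?_ ?_ ?_ ?_ ?_ ?_ hMc.2
    · intro t ht
      have h7 := hnr t ht k
      by_cases h8 : 3 ≤ (T (pt z (t + (k.val : ℝ)))).ncard
      · left
        exact Set.eq_of_subset_of_ncard_le h7 ((hclean k).trans h8) (Set.toFinite _)
      · right
        have h9 : (T (pt z (t + (k.val : ℝ)))).ncard = 2 := by
          have := C.two_le (dist_pt z (t + (k.val : ℝ)))
          omega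
        -- a generic time near `t`
        have h10 : ∀ᶠ v in 𝓝 t, T (pt z (v + (k.val : ℝ))) = T (pt z (t + (k.val : ℝ))) := by
          have h11 := C.irr.pair_open (z := z) (y := pt z (t + (k.val : ℝ))) h9
            (fun i _ => C.all i) subset_rfl
          have h12 : Tendsto (fun v : ℝ => pt z (v + (k.val : ℝ))) (𝓝 t)
              (𝓝[sphere z 1] (pt z (t + (k.val : ℝ)))) := by
            refine tendsto_nhdsWithin_iff.2 ⟨?_, Eventually.of_forall fun v => dist_pt z _⟩
            exact ((continuous_pt z).comp (by fun_prop : Continuous fun v : ℝ =>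
              v + (k.val : ℝ))).tendsto t
          exact h12.eventually h11
        have hev : ∀ᶠ v in 𝓝 t, |v - m| < e := by
          have hc : Continuous fun v : ℝ => |v - m| := by fun_prop
          exact hc.continuousAt.eventually (Iio_mem_nhds ht)
        obtain ⟨v, hvg, hv1, hv2⟩ := ((mem_closure_iff_frequently.1
          (C.gn_dense t)).and_eventually (h10.and hev)).exists
        have hvg : Gn T z v := hvg
        obtain ⟨g, hg⟩ := C.exists_sel v
        obtain ⟨hg1, hg2⟩ := hgen v hv2 hvg g hg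
        have h13 : g k = T (pt z (t + (k.val : ℝ))) := by
          refine Set.eq_of_subset_of_ncard_le ?_ (by rw [h9, col_card hg1]) (Set.toFinite _)
          rw [← hv1]; exact (hg k).2
        rw [← h13]
        exact hk2 g hg1 hg2
    all_goals intro i
    · rw [← hτ]
      rcases h1 (mem_univ i) with (h7 | h7) | (h7 | h7)
      · exact Or.inl h7
      · exact Or.inr (Or.inl h7)
      · exact Or.inr (Or.inr (Or.inl h7))
      · exact Or.inr (Or.inr (Or.inr h7))
    · rcases h2 (mem_univ i) with (h7 | h7) | (h7 | h7)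
      · exact Or.inl h7
      · exact Or.inr (Or.inl h7)
      · exact Or.inr (Or.inr (Or.inl h7))
      · exact Or.inr (Or.inr (Or.inr h7))
    · rcases h3 (mem_univ i) with (h7 | h7) | (h7 | h7 | h7)
      · exact Or.inl h7
      · exact Or.inr (Or.inl h7)
      · exact Or.inr (Or.inr (Or.inl h7))
      · exact Or.inr (Or.inr (Or.inr (Or.inl h7)))
      · exact Or.inr (Or.inr (Or.inr (Or.inr h7)))
    · rw [← hτ]
      rcases h4 (mem_univ i) with (h7 | h7) | h7
      · exact Or.inl h7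
      · exact Or.inr (Or.inl h7)
      · exact Or.inr (Or.inr h7)
    · rw [← hτ]
      rcases h5 (mem_univ i) with (h7 | h7) | (h7 | h7)
      · exact Or.inl h7
      · exact Or.inr (Or.inl h7)
      · exact Or.inr (Or.inr (Or.inl h7))
      · exact Or.inr (Or.inr (Or.inr h7))
    · rw [← hτ, ← hτ]
      rcases h6 (mem_univ i) with (h7 | h7) | h7
      · exact Or.inl h7
      · exact Or.inr (Or.inl h7)
      · exact Or.inr (Or.inr h7)
  refine no_event C.irr (Six6.xx C) (C.all s) (m := m) fun j => ?_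
  rcases hray j with (h1 | h1) | (h1 | h1)
  · exact Or.inl (hDr j h1)
  · exact Or.inl (hWr j h1)
  · exact Or.inr (hDr _ h1)
  · exact Or.inr (hWr _ h1)

/-- **A clean point with six colours has no silent colour.** -/
theorem no_silent_six (C : Six6 U T z) (hmn : ∀ z, 4 ≤ (T z).ncard → ∀ s, s ⊆ T z → s ≠ T z →
      ¬ ∀ᶠ w in 𝓝 z, ∃ i ∈ s, w ∈ U i ∨ (w ∈ XX U ∧ i ∈ Pal U w))
    (hs : ∀ q, dist q z = 1 → s ∈ T q → (T q).ncard ≠ 2) : False := by
  have h1 := C.irr.no_silent (Six6.xx C) (C.all s) C.clean fun a ha => exists_left C hmn hs ha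
  obtain ⟨x, y, ⟨hne, q, hq, hTq⟩, -⟩ := C.sub_pair (dist_pt z 0)
  refine hs q hq (h1 q hq) ?_
  rw [hTq]; exact Set.ncard_pair hne

end Vale.Agent.P032.H396
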