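import Vale.Agent.P032.H396.Sil
import Vale.Agent.P032.H416.Props

/-!
# P032: the block `Sil6N`

A clean point with six colours has no silent colour: `Sil6N` (and the older form `Sil6`).
-/

open Set Filter Topology Metric

noncomputable section

namespace Vale.Agent.P032.H396

open Vale.Agent.P032.Six Vale.Agent.P032.S5.H767 Vale.Agent.P032.Words6.H704

/-- **The block `Sil6N`.** -/
theorem sil6N : Sil6N := by
  intro U T h hmn _ _ _ z h6 hcl i hi
  exact no_silent_six (six_of h h6 hcl) hmn hi

/-- the block `Sil6` -/
theorem sil6 : Sil6 := by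
  intro U T h hmn _ _ _ z h6 hcl i hi
  exact no_silent_six (six_of h h6 hcl) hmn hi

end Vale.Agent.P032.H396
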