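import Vale.Agent.P032.H396.Kill
import Vale.Agent.P032.S5.H394.Arc

/-!
# P032: the window kill

`window_crv` : for `w` near `y0` on the right side the curve of `S(w)` near `z` runs from `t = θ`,
`t' < θ` to a point with `t' = θ`; after a small shift of `w` the end time `t` is any given time near
the old one.
`Irr.kill_window` : the window kill.
-/

open Set Filter Topology Metric

noncomputable section

namespace Vale.Agent.P032.Six

variable {k : ℕ} {U : Fin k → Set ℂ} {T : ℂ → Set (Fin k)}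

/-- small angles with zero sine -/
theorem eq_of_sin_half {a b : ℝ} (h : Real.sin ((a - b) / 2) = 0) (hab : |a - b| < 2) : a = b := by
  have h1 := abs_lt.1 hab
  have hp := Real.pi_gt_three
  have h2 := (Real.sin_eq_zero_iff_of_lt_of_lt (by linarith) (by linarith)).1 h
  linarith

theorem ip_cont {X : Type*} [TopologicalSpace X] {f : X → ℝ} {g : X → ℂ} (hf : Continuous f)
    (hg : Continuous g) : Continuous fun x => ip (Complex.I * cis (f x)) (g x) := by
  have h2 : Continuous fun x => Complex.I * cis (f x) :=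
    continuous_const.mul (continuous_cis.comp hf)
  unfold ip
  exact ((Complex.continuous_re.comp h2).mul (Complex.continuous_re.comp hg)).add
    ((Complex.continuous_im.comp h2).mul (Complex.continuous_im.comp hg))

/-- uniqueness of `t'` near `θ` -/
theorem uniq_near {z y0 : ℂ} {θ : ℝ} (hκ : ip (Complex.I * cis θ) (y0 - z) ≠ 0) :
    ∃ ε > 0, ∀ᶠ w in 𝓝 y0, ∀ t a b : ℝ, |t - θ| < ε → |a - θ| < ε → |b - θ| < ε →
      dist (z + cis t - cis a) w = 1 → dist (z + cis t - cis b) w = 1 → a = b := by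
  have hc : Continuous fun a : (ℝ × ℝ × ℝ) × ℂ =>
      ip (Complex.I * cis ((a.1.2.1 + a.1.2.2) / 2)) (z + cis a.1.1 - a.2) := by
    refine ip_cont (by fun_prop) ?_
    exact (continuous_const.add (continuous_cis.comp (by fun_prop))).sub (by fun_prop)
  have h0 : ip (Complex.I * cis ((θ + θ) / 2)) (z + cis θ - y0) ≠ 0 := by
    have e : ip (Complex.I * cis ((θ + θ) / 2)) (z + cis θ - y0) =
        -ip (Complex.I * cis θ) (y0 - z) := by
      rw [show (θ + θ) / 2 = θ by ring]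
      unfold ip
      simp only [Complex.sub_re, Complex.sub_im, Complex.add_re, Complex.add_im, Complex.mul_re,
        Complex.mul_im, Complex.I_re, Complex.I_im, cis_re, cis_im]
      ring
    rw [e]; exact neg_ne_zero.2 hκ
  have h1 : ∀ᶠ a : (ℝ × ℝ × ℝ) × ℂ in 𝓝 ((θ, θ, θ), y0),
      ip (Complex.I * cis ((a.1.2.1 + a.1.2.2) / 2)) (z + cis a.1.1 - a.2) ≠ 0 :=
    hc.continuousAt.eventually_ne h0
  rw [nhds_prod_eq, Filter.eventually_prod_iff] at h1
  obtain ⟨pa, hpa, pb, hpb, hab⟩ := h1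
  obtain ⟨ε, hε, hball⟩ := Metric.eventually_nhds_iff.1 hpa
  refine ⟨min ε 1, lt_min hε one_pos, ?_⟩
  filter_upwards [hpb] with w hw t a b ht ha hb hda hdb
  have h2 : pa (t, a, b) := by
    refine hball ?_
    rw [Prod.dist_eq, Prod.dist_eq]
    refine max_lt ?_ (max_lt ?_ ?_)
    · rw [Real.dist_eq]; exact lt_of_lt_of_le ht (min_le_left _ _)
    · rw [Real.dist_eq]; exact lt_of_lt_of_le ha (min_le_left _ _)
    · rw [Real.dist_eq]; exact lt_of_lt_of_le hb (min_le_left _ _)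
  have h3 : ip (Complex.I * cis ((a + b) / 2)) (z + cis t - w) ≠ 0 := hab h2 hw
  refine eq_of_sin_half (uniq_crv hda hdb h3) ?_
  have h4 := abs_lt.1 (lt_of_lt_of_le ha (min_le_right _ _))
  have h5 := abs_lt.1 (lt_of_lt_of_le hb (min_le_right _ _))
  rw [abs_lt]; constructor <;> linarith

/-- uniqueness of `t` near `θ` -/
theorem uniq_near' {z y0 : ℂ} {θ : ℝ} (hκ : ip (Complex.I * cis θ) (y0 - z) ≠ 0) :
    ∃ ε > 0, ∀ᶠ w in 𝓝 y0, ∀ t' a b : ℝ, |t' - θ| < ε → |a - θ| < ε → |b - θ| < ε →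
      dist (z + cis a - cis t') w = 1 → dist (z + cis b - cis t') w = 1 → a = b := by
  have hc : Continuous fun a : (ℝ × ℝ × ℝ) × ℂ =>
      ip (Complex.I * cis ((a.1.2.1 + a.1.2.2) / 2)) (z - cis a.1.1 - a.2) := by
    refine ip_cont (by fun_prop) ?_
    exact (continuous_const.sub (continuous_cis.comp (by fun_prop))).sub (by fun_prop)
  have h0 : ip (Complex.I * cis ((θ + θ) / 2)) (z - cis θ - y0) ≠ 0 := by
    have e : ip (Complex.I * cis ((θ + θ) / 2)) (z - cis θ - y0) =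
        -ip (Complex.I * cis θ) (y0 - z) := by
      rw [show (θ + θ) / 2 = θ by ring]
      unfold ip
      simp only [Complex.sub_re, Complex.sub_im, Complex.mul_re,
        Complex.mul_im, Complex.I_re, Complex.I_im, cis_re, cis_im]
      ring
    rw [e]; exact neg_ne_zero.2 hκ
  have h1 : ∀ᶠ a : (ℝ × ℝ × ℝ) × ℂ in 𝓝 ((θ, θ, θ), y0),
      ip (Complex.I * cis ((a.1.2.1 + a.1.2.2) / 2)) (z - cis a.1.1 - a.2) ≠ 0 :=
    hc.continuousAt.eventually_ne h0
  rw [nhds_prod_eq, Filter.eventually_prod_iff] at h1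
  obtain ⟨pa, hpa, pb, hpb, hab⟩ := h1
  obtain ⟨ε, hε, hball⟩ := Metric.eventually_nhds_iff.1 hpa
  refine ⟨min ε 1, lt_min hε one_pos, ?_⟩
  filter_upwards [hpb] with w hw t a b ht ha hb hda hdb
  have h2 : pa (t, a, b) := by
    refine hball ?_
    rw [Prod.dist_eq, Prod.dist_eq]
    refine max_lt ?_ (max_lt ?_ ?_)
    · rw [Real.dist_eq]; exact lt_of_lt_of_le ht (min_le_left _ _)
    · rw [Real.dist_eq]; exact lt_of_lt_of_le ha (min_le_left _ _)
    · rw [Real.dist_eq]; exact lt_of_lt_of_le hb (min_le_left _ _)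
  have h3 : ip (Complex.I * cis ((a + b) / 2)) (z - cis t - w) ≠ 0 := hab h2 hw
  refine eq_of_sin_half (uniq_crv' hda hdb h3) ?_
  have h4 := abs_lt.1 (lt_of_lt_of_le ha (min_le_right _ _))
  have h5 := abs_lt.1 (lt_of_lt_of_le hb (min_le_right _ _))
  rw [abs_lt]; constructor <;> linarith

/-- **The window.** -/
theorem window_crv {z y0 : ℂ} {θ : ℝ} (hy0 : dist y0 z = 1)
    (hκ : ip (Complex.I * cis θ) (y0 - z) ≠ 0) {ε : ℝ} (hε : 0 < ε) :
    ∀ᶠ w0 in 𝓝 y0, 0 < (dist w0 z ^ 2 - 1) * ip (Complex.I * cis θ) (y0 - z) →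
      ∀ O ∈ 𝓝 w0, ∃ a b : ℝ, θ < a ∧ a < b ∧ b < θ + ε ∧ ∀ t1 ∈ Ioo a b, ∃ w1 ∈ O,
        0 < (dist w1 z ^ 2 - 1) * ip (Complex.I * cis θ) (y0 - z) ∧
        ∃ f : ℝ → ℝ, ContinuousOn f (Icc θ t1) ∧ f t1 = θ ∧
          (∀ t ∈ Ico θ t1, θ - ε < f t ∧ f t < θ) ∧
          ∀ t ∈ Icc θ t1, dist (z + cis t - cis (f t)) w1 = 1 := by
  set κ := ip (Complex.I * cis θ) (y0 - z) with hκd
  obtain ⟨F, hF1, hF2, hF3⟩ := crv hy0 hκ
  obtain ⟨ε1, hε1, hsign⟩ := sign_crv hκ
  obtain ⟨ε2, hε2, huniq⟩ := uniq_near hκ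
  obtain ⟨ε3, hε3, huniq'⟩ := uniq_near' hκ
  set e := min (min ε ε1) (min ε2 ε3) with he
  have he0 : 0 < e := lt_min (lt_min hε hε1) (lt_min hε2 hε3)
  have he1 : e ≤ ε := (min_le_left _ _).trans (min_le_left _ _)
  have he2 : e ≤ ε1 := (min_le_left _ _).trans (min_le_right _ _)
  have he3 : e ≤ ε2 := (min_le_right _ _).trans (min_le_left _ _)
  have he4 : e ≤ ε3 := (min_le_right _ _).trans (min_le_right _ _)
  have hall := ((hF1 e he0).and hF2).and hF3
  rw [nhds_prod_eq, Filter.eventually_prod_iff] at hall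
  obtain ⟨pa, hpa, pb, hpb, hab⟩ := hall
  obtain ⟨ε4, hε4, hball⟩ := Metric.eventually_nhds_iff.1 hpa
  set d := min (min e ε4) 1 / 2 with hd
  have hd0 : 0 < d := by positivity
  have hde : d < e := by
    have h1 : min (min e ε4) 1 ≤ e := (min_le_left _ _).trans (min_le_left _ _)
    have h2 : 0 < min (min e ε4) 1 := by positivity
    linarith
  have hd4 : d < ε4 := by
    have h1 : min (min e ε4) 1 ≤ ε4 := (min_le_left _ _).trans (min_le_right _ _)
    have h2 : 0 < min (min e ε4) 1 := by positivity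
    linarith
  have hpa' : ∀ t : ℝ, |t - θ| ≤ d → pa t := by
    intro t ht
    exact hball (by rw [Real.dist_eq]; exact lt_of_le_of_lt ht hd4)
  have hab' : ∀ t : ℝ, |t - θ| ≤ d → ∀ w, pb w → |F t w - θ| < e ∧
      ContinuousAt (fun p : ℝ × ℂ => F p.1 p.2) (t, w) ∧ dist (z + cis t - cis (F t w)) w = 1 :=
    fun t ht w hw => ⟨(hab (hpa' t ht) hw).1.1, (hab (hpa' t ht) hw).1.2, (hab (hpa' t ht) hw).2⟩
  -- for `y0` itself the two angles agree
  have hy0z : dist (z + cis (θ + d) - cis (θ + d)) y0 = 1 := by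
    rw [add_sub_cancel_right, dist_comm]; exact hy0
  have hFd0 : F (θ + d) y0 = θ + d := by
    have h1 := hab' (θ + d) (by rw [add_sub_cancel_left, abs_of_pos hd0]) y0 hpb.self_of_nhds
    refine huniq.self_of_nhds (θ + d) _ _ ?_ ?_ ?_ h1.2.2 hy0z
    · rw [add_sub_cancel_left, abs_of_pos hd0]; linarith
    · exact lt_of_lt_of_le h1.1 he3
    · rw [add_sub_cancel_left, abs_of_pos hd0]; linarith
  have hFd : ∀ᶠ w in 𝓝 y0, θ < F (θ + d) w := by
    have h1 := (hab' (θ + d) (by rw [add_sub_cancel_left, abs_of_pos hd0]) y0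
      hpb.self_of_nhds).2.1
    have h2 : Tendsto (fun w : ℂ => (θ + d, w)) (𝓝 y0) (𝓝 (θ + d, y0)) :=
      (continuous_const.prodMk continuous_id).tendsto y0
    have h3 : Tendsto (fun w : ℂ => F (θ + d) w) (𝓝 y0) (𝓝 (F (θ + d) y0)) :=
      h1.tendsto.comp h2
    rw [hFd0] at h3
    exact h3.eventually (lt_mem_nhds (by linarith))
  -- an open neighbourhood
  have hgood := (((hpb.and hFd).and hsign).and huniq).and huniq'
  obtain ⟨N, hN, hNo, hyN⟩ := _root_.mem_nhds_iff.1 hgood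
  filter_upwards [hNo.mem_nhds hyN] with w0 hw0 hpos O hO
  have hN1 : ∀ w ∈ N, pb w := fun w hw => (hN hw).1.1.1.1
  have hN2 : ∀ w ∈ N, θ < F (θ + d) w := fun w hw => (hN hw).1.1.1.2
  have hcont : ∀ w ∈ N, ∀ t : ℝ, |t - θ| ≤ d → ContinuousAt (fun t => F t w) t := by
    intro w hw t ht
    have h1 := (hab' t ht w (hN1 w hw)).2.1
    have h2 : Tendsto (fun t : ℝ => (t, w)) (𝓝 t) (𝓝 (t, w)) :=
      (continuous_id.prodMk continuous_const).tendsto t
    exact h1.tendsto.comp h2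
  have hstart : ∀ w ∈ N, 0 < (dist w z ^ 2 - 1) * κ → F θ w < θ := by
    intro w hw hp
    have h1 := hab' θ (by simpa using hd0.le) w (hN1 w hw)
    exact (hN hw).1.1.2 θ (F θ w) (by simpa using hε1) (lt_of_lt_of_le h1.1 he2) h1.2.2 hp
  -- the end time for `w0`
  have hIcc : ∀ t ∈ Icc θ (θ + d), |t - θ| ≤ d := by
    intro t ht
    rw [abs_of_nonneg (by linarith [ht.1])]; linarith [ht.2]
  obtain ⟨t2, ht2, hFt2⟩ : ∃ t2 ∈ Icc θ (θ + d), F t2 w0 = θ := by
    have h1 : ContinuousOn (fun t => F t w0) (Icc θ (θ + d)) := fun t ht =>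
      (hcont w0 hw0 t (hIcc t ht)).continuousWithinAt
    have h2 := intermediate_value_Icc (by linarith : θ ≤ θ + d) h1
    exact h2 ⟨(hstart w0 hw0 hpos).le, (hN2 w0 hw0).le⟩
  have ht2θ : θ < t2 := by
    refine lt_of_le_of_ne ht2.1 fun h1 => ?_
    rw [← h1] at hFt2
    exact absurd hFt2 (hstart w0 hw0 hpos).ne
  have ht2d : t2 < θ + d := by
    refine lt_of_le_of_ne ht2.2 fun h1 => ?_
    rw [h1] at hFt2
    exact absurd hFt2 (hN2 w0 hw0).ne'
  -- shifting
  have hshift : Continuous fun t : ℝ => w0 + cis t - cis t2 :=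
    (continuous_const.add continuous_cis).sub continuous_const
  have hs0 : w0 + cis t2 - cis t2 = w0 := by ring
  have h1 : ∀ᶠ t in 𝓝 t2, w0 + cis t - cis t2 ∈ O ∩ N := by
    refine hshift.continuousAt.preimage_mem_nhds ?_
    rw [hs0]
    exact inter_mem hO (hNo.mem_nhds hw0)
  have h2 : ∀ᶠ t in 𝓝 t2, 0 < (dist (w0 + cis t - cis t2) z ^ 2 - 1) * κ := by
    have hc : Continuous fun t : ℝ => (dist (w0 + cis t - cis t2) z ^ 2 - 1) * κ :=
      (((hshift.dist continuous_const).pow 2).sub continuous_const).mul continuous_const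
    refine hc.continuousAt.eventually (lt_mem_nhds ?_)
    show 0 < (dist (w0 + cis t2 - cis t2) z ^ 2 - 1) * κ
    rw [hs0]; exact hpos
  obtain ⟨δ, hδ, hδs⟩ := Metric.eventually_nhds_iff.1 (h1.and h2)
  have hmm : max θ (t2 - δ) < min (θ + d) (t2 + δ) :=
    max_lt (lt_min (by linarith) (by linarith)) (lt_min (by linarith) (by linarith))
  set b := min (θ + d) (t2 + δ) with hb
  set a := (max θ (t2 - δ) + min (θ + d) (t2 + δ)) / 2 with ha
  have hab2 : a < b := by linarith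
  have haθ : θ < a := by
    have := le_max_left θ (t2 - δ)
    linarith
  have hbd : b ≤ θ + d := min_le_left _ _
  have haδ : t2 - δ < a := by
    have := le_max_right θ (t2 - δ)
    linarith
  have hbδ : b ≤ t2 + δ := min_le_right _ _
  refine ⟨a, b, haθ, hab2, by linarith, fun t1 ht1 => ?_⟩
  obtain ⟨⟨hw1O, hw1N⟩, hpos1⟩ := hδs (y := t1) (by
    rw [Real.dist_eq, abs_lt]; constructor <;> linarith [ht1.1, ht1.2])
  set w1 := w0 + cis t1 - cis t2 with hw1
  have ht1θ : θ < t1 := lt_trans haθ ht1.1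
  have ht1d : t1 < θ + d := lt_of_lt_of_le ht1.2 hbd
  have hd1 : dist (z + cis t1 - cis θ) w1 = 1 := by
    have h3 := (hab' t2 (hIcc t2 ht2) w0 (hN1 w0 hw0)).2.2
    rw [hFt2] at h3
    rw [← h3, dist_eq_norm, dist_eq_norm]
    congr 1
    rw [hw1]; ring
  have hIcc1 : ∀ t ∈ Icc θ t1, |t - θ| ≤ d := fun t ht =>
    hIcc t ⟨ht.1, ht.2.trans ht1d.le⟩
  have hF1t : F t1 w1 = θ := by
    have h3 := hab' t1 (hIcc1 t1 ⟨ht1θ.le, le_rfl⟩) w1 (hN1 w1 hw1N)
    refine (hN hw1N).1.2 t1 _ _ ?_ ?_ ?_ h3.2.2 hd1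
    · rw [abs_of_pos (by linarith)]; linarith
    · exact lt_of_lt_of_le h3.1 he3
    · simpa using hε2
  refine ⟨w1, hw1O, hpos1, fun t => F t w1, fun t ht =>
    (hcont w1 hw1N t (hIcc1 t ht)).continuousWithinAt, hF1t, fun t ht => ?_, fun t ht =>
    (hab' t (hIcc1 t ht) w1 (hN1 w1 hw1N)).2.2⟩
  have htc : t ∈ Icc θ t1 := ⟨ht.1, ht.2.le⟩
  have h3 := hab' t (hIcc1 t htc) w1 (hN1 w1 hw1N)
  refine ⟨?_, ?_⟩
  · have h4 := abs_lt.1 h3.1
    linarith
  · by_contra hcon
    push Not at hcon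
    -- a zero before `t1`
    have hcon' : θ ≤ F t w1 := hcon
    have h4 : ContinuousOn (fun t => F t w1) (Icc θ t) := fun u hu =>
      (hcont w1 hw1N u (hIcc1 u ⟨hu.1, hu.2.trans ht.2.le⟩)).continuousWithinAt
    obtain ⟨u, hu, hFu⟩ := intermediate_value_Icc ht.1 h4
      ⟨(hstart w1 hw1N hpos1).le, hcon'⟩
    have hFu : F u w1 = θ := hFu
    have hut : u ∈ Icc θ t1 := ⟨hu.1, hu.2.trans ht.2.le⟩
    have h5 := hab' u (hIcc1 u hut) w1 (hN1 w1 hw1N)
    have h6 := h5.2.2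
    rw [hFu] at h6
    have h7 : u = t1 := by
      refine (hN hw1N).2 θ u t1 ?_ ?_ ?_ h6 hd1
      · simpa using hε3
      · exact lt_of_le_of_lt (hIcc1 u hut) (by linarith)
      · rw [abs_of_pos (by linarith)]; linarith
    linarith [hu.2, ht.2]

/-- palettes on the circle are locally constant near some parameter of every interval -/
theorem exists_const_param (T : ℂ → Set (Fin k)) (hn : ∀ x, ∀ᶠ y in 𝓝 x, T y ⊆ T x) (z : ℂ)
    {a b : ℝ} (hab : a < b) :
    ∃ t ∈ Ioo a b, ∃ δ > 0, ∀ u : ℝ, |u - t| < δ → T (z + cis u) = T (z + cis t) := by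
  have hne : ((fun t : ℝ => (T (z + cis t)).ncard) '' Ioo a b).Nonempty :=
    ⟨_, (a + b) / 2, ⟨by linarith, by linarith⟩, rfl⟩
  obtain ⟨_, ⟨t, ht, rfl⟩, hmin⟩ :=
    WellFounded.has_min (r := ((· < ·) : ℕ → ℕ → Prop)) wellFounded_lt _ hne
  refine ⟨t, ht, ?_⟩
  have hc : Continuous fun t : ℝ => z + cis t := continuous_const.add continuous_cis
  have h1 : ∀ᶠ u in 𝓝 t, T (z + cis u) ⊆ T (z + cis t) :=
    hc.continuousAt.eventually (hn (z + cis t))
  have h2 : ∀ᶠ u in 𝓝 t, u ∈ Ioo a b := Ioo_mem_nhds ht.1 ht.2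
  obtain ⟨δ, hδ, hball⟩ := Metric.eventually_nhds_iff.1 (h1.and h2)
  refine ⟨δ, hδ, fun u hu => ?_⟩
  obtain ⟨h3, h4⟩ := hball (y := u) (by rw [Real.dist_eq]; exact hu)
  refine Set.eq_of_subset_of_ncard_le h3 ?_ (Set.toFinite _)
  exact not_lt.1 (hmin _ ⟨u, h4, rfl⟩)

/-- the two ways of meeting a closed cover of an interval -/
theorem exists_both {a b : ℝ} (hab : a ≤ b) {A B : Set ℝ} (hA : IsClosed A) (hB : IsClosed B)
    (hcov : Icc a b ⊆ A ∪ B) (ha : a ∈ A) (hb : b ∈ B) : ∃ t ∈ Icc a b, t ∈ A ∧ t ∈ B := by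
  have h1 := isPreconnected_closed_iff.1 (isPreconnected_Icc (a := a) (b := b)) A B hA hB hcov
    ⟨a, ⟨le_rfl, hab⟩, ha⟩ ⟨b, ⟨hab, le_rfl⟩, hb⟩
  obtain ⟨t, ht, h2⟩ := h1
  exact ⟨t, ht, h2.1, h2.2⟩

/-- **Window kill.** -/
theorem Irr.kill_window (h : Irr U T) {z y0 : ℂ} {s c c' : Fin k} {θ η : ℝ} {Q A B : Set (Fin k)}
    (hy0 : dist y0 z = 1) (hκ : ip (Complex.I * cis θ) (y0 - z) ≠ 0) (hη : 0 < η)
    (h3 : (T (z + cis θ)).ncard ≤ 3) (h3' : (T (z - cis θ)).ncard ≤ 3)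
    (hAB : ∀ t, |t - θ| < η → T (z + cis t) = T (z + cis θ) ∨ T (z + cis t) = A ∨
      T (z + cis t) = B)
    (hA : A.ncard = 2) (hB : B.ncard = 2) (hAz : A ⊆ T z) (hBz : B ⊆ T z)
    (hQ : ∀ t, θ - η < t → t < θ → Q ⊆ Pal U (z - cis t))
    (h4 : (T z \ (Q ∪ {s})).ncard ≤ 3) (h4' : (T z \ (B ∪ {s})).ncard ≤ 3)
    (hT1 : T z ⊆ Q ∪ T (z + cis θ) ∪ {s, c}) (hT2 : T z ⊆ Q ∪ A ∪ {s, c})
    (hT3 : T z ⊆ Q ∪ B ∪ {s, c, c'}) (hT4 : T z ⊆ A ∪ T (z - cis θ) ∪ {s})
    (hT5 : T z ⊆ B ∪ T (z - cis θ) ∪ {s, c'})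
    (hT6 : T z ⊆ T (z + cis θ) ∪ T (z - cis θ) ∪ {s})
    (hcc : ∃ q1, dist q1 z = 1 ∧ T q1 = {c, c'}) :
    ∀ᶠ w in 𝓝 y0, 0 < (dist w z ^ 2 - 1) * ip (Complex.I * cis θ) (y0 - z) → w ∉ U s := by
  obtain ⟨q1, hq1, hTq1⟩ := hcc
  obtain ⟨ε1, hε1, hnear⟩ := near_crv (θ := θ) (inter_mem (h.nhd z) (h.no_layer hq1))
  set ε := min ε1 η with hεd
  have hε : 0 < ε := lt_min hε1 hη
  filter_upwards [window_crv hy0 hκ hε] with w0 hw0 hpos0 hw0s
  obtain ⟨a, b, haθ, hab, hbε, hwin⟩ := hw0 hpos0 (U s) ((h.mx.isOpen s).mem_nhds hw0s)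
  obtain ⟨t1, ht1, δ, hδ, hconst⟩ := exists_const_param T h.nhd z hab
  obtain ⟨w, hws, hpos, f, hfc, hf1, hf2, hf3⟩ := hwin t1 ht1
  have hθ1 : θ < t1 := lt_trans haθ ht1.1
  have ht1ε : t1 < θ + ε := lt_trans ht1.2 hbε
  have hε1' : ε ≤ ε1 := min_le_left _ _
  have hεη : ε ≤ η := min_le_right _ _
  -- basic facts along the curve
  have hfb : ∀ t ∈ Icc θ t1, |t - θ| < ε ∧ |f t - θ| < ε := by
    intro t ht
    refine ⟨by rw [abs_lt]; constructor <;> linarith [ht.1, ht.2], ?_⟩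
    rcases eq_or_lt_of_le ht.2 with h5 | h5
    · rw [h5, hf1]; simpa using hε
    · have h6 := hf2 t ⟨ht.1, h5⟩
      rw [abs_lt]; constructor <;> linarith [h6.1, h6.2]
  have hnr : ∀ t ∈ Icc θ t1, T (z + cis t - cis (f t)) ⊆ T z ∧
      (T q1 ⊆ T (z + cis t - cis (f t)) → 4 ≤ (T (z + cis t - cis (f t))).ncard) ∧
      ‖cis t - cis (f t)‖ < 2 := by
    intro t ht
    obtain ⟨h5, h6⟩ := hfb t ht
    obtain ⟨⟨h7, h8⟩, h9⟩ := hnear t (f t) (lt_of_lt_of_le h5 hε1') (lt_of_lt_of_le h6 hε1')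
    exact ⟨h7, h8, h9⟩
  have hne : ∀ t ∈ Icc θ t1, z + cis t - cis (f t) ≠ z := by
    intro t ht h5
    have h6 := hf3 t ht
    rw [h5, dist_comm] at h6
    rw [h6] at hpos
    norm_num at hpos
  have hs : ∀ t ∈ Icc θ t1, s ∉ T (z + cis t - cis (f t)) := fun t ht hst =>
    h.mx.notMem' hws (by rw [dist_comm]; exact hf3 t ht) (h.sub _ hst)
  -- the colours of `Q` are absent
  have hQx : ∀ t ∈ Ico θ t1, ∀ i ∈ Q, i ∉ T (z + cis t - cis (f t)) := by
    intro t ht i hi hit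
    have htc : t ∈ Icc θ t1 := ⟨ht.1, ht.2.le⟩
    have h5 := hf2 t ht
    refine h.mx.rhomb_notMem (δ := min (θ - f t) (f t - (θ - ε))) (lt_min (by linarith)
      (by linarith)) (fun u hu => ?_) (hne t htc) (hnr t htc).2.2 hi (h.sub _ hit)
    have h9 := abs_lt.1 hu
    have h10 := min_le_left (θ - f t) (f t - (θ - ε))
    have h11 := min_le_right (θ - f t) (f t - (θ - ε))
    exact hQ u (by linarith) (by linarith)
  -- a palette of two colours is absent
  have hPx : ∀ t ∈ Icc θ t1, ∀ P : Set (Fin k), P.ncard = 2 → P ⊆ T z → T (z + cis t) = P →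
      ∀ i ∈ P, i ∉ T (z + cis t - cis (f t)) := by
    intro t ht P hP2 hPz hTP i hi hit
    have h5 := h.pair_open (z := z) hP2 hPz hTP.subset
    have h6 : ∀ᶠ q in 𝓝[sphere z 1] (z + cis t), P ⊆ Pal U q := by
      filter_upwards [h5] with q hq
      rw [← hq]; exact h.sub q
    refine h.mx.sweep_notMem (z := z) (q := z + cis t) (dist_add_cis z _) h6 ?_
      (Ne.symm (hne t ht)) ?_ hi (h.sub _ hit)
    · rw [dist_eq_norm, show z + cis t - cis (f t) - (z + cis t) = -cis (f t) by ring, norm_neg]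
      exact norm_cis _
    · intro h7
      have h8 : cis t - cis (f t) = 2 * cis t := by linear_combination h7
      have h9 := (hnr t ht).2.2
      rw [h8, norm_mul, norm_cis] at h9
      norm_num at h9
  -- the two closed sets
  set f' : ℝ → ℝ := fun t => f (min (Max.max t θ) t1) with hf'
  have hf'c : Continuous f' := by
    have h5 : ContinuousOn f (Icc θ t1) := hfc
    refine h5.comp_continuous (by fun_prop) fun t => ⟨?_, min_le_right _ _⟩
    exact le_min (le_max_right _ _) hθ1.le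
  have hf'eq : ∀ t ∈ Icc θ t1, f' t = f t := by
    intro t ht
    simp only [hf']
    rw [max_eq_left ht.1, min_eq_left ht.2]
  have hxc : Continuous fun t : ℝ => z + cis t - cis (f' t) :=
    (continuous_const.add continuous_cis).sub (continuous_cis.comp hf'c)
  have hcl : ∀ i : Fin k, IsClosed {t : ℝ | i ∈ T (z + cis t - cis (f' t))} := fun i =>
    (h.closed i).preimage hxc
  have hmem : ∀ i : Fin k, ∀ t ∈ Icc θ t1, (t ∈ {t : ℝ | i ∈ T (z + cis t - cis (f' t))} ↔
      i ∈ T (z + cis t - cis (f t))) := by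
    intro i t ht
    simp only [mem_ofPred_eq, hf'eq t ht]
  -- one of `c`, `c'` everywhere
  have hstartc : ∀ t ∈ Ico θ t1, T (z + cis t) = T (z + cis θ) →
      c ∈ T (z + cis t - cis (f t)) := by
    intro t ht hTt
    have htc : t ∈ Icc θ t1 := ⟨ht.1, ht.2.le⟩
    by_contra hc
    refine h.not_sub (x := z + cis t) (y := z + cis t - cis (f t)) ?_ (by rw [hTt]; exact h3)
      fun i hi => ?_
    · rw [dist_comm]; exact dist_rhomb z t (f t)
    · rcases hT1 ((hnr t htc).1 hi) with (h8 | h8) | h8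
      · exact absurd hi (hQx t ht i h8)
      · rw [hTt]; exact h8
      · rcases h8 with rfl | h8
        · exact absurd hi (hs t htc)
        · rw [mem_singleton_iff] at h8
          subst h8
          exact absurd hi hc
  have hmid : ∀ t ∈ Ico θ t1, c ∈ T (z + cis t - cis (f t)) ∨
      c' ∈ T (z + cis t - cis (f t)) := by
    intro t ht
    have htc : t ∈ Icc θ t1 := ⟨ht.1, ht.2.le⟩
    rcases hAB t (lt_of_lt_of_le (hfb t htc).1 hεη) with h5 | h5 | h5
    · exact Or.inl (hstartc t ht h5)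
    · obtain ⟨i, hi⟩ := h.ne (z + cis t - cis (f t))
      rcases hT2 ((hnr t htc).1 hi) with (h8 | h8) | h8
      · exact absurd hi (hQx t ht i h8)
      · exact absurd hi (hPx t htc A hA hAz h5 i h8)
      · rcases h8 with rfl | h8
        · exact absurd hi (hs t htc)
        · rw [mem_singleton_iff] at h8
          subst h8
          exact Or.inl hi
    · obtain ⟨i, hi⟩ := h.ne (z + cis t - cis (f t))
      rcases hT3 ((hnr t htc).1 hi) with (h8 | h8) | h8
      · exact absurd hi (hQx t ht i h8)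
      · exact absurd hi (hPx t htc B hB hBz h5 i h8)
      · rcases h8 with rfl | rfl | h8
        · exact absurd hi (hs t htc)
        · exact Or.inl hi
        · rw [mem_singleton_iff] at h8
          subst h8
          exact Or.inr hi
  -- the end
  have htc1 : t1 ∈ Icc θ t1 := ⟨hθ1.le, le_rfl⟩
  have hendτ : ¬ T (z + cis t1 - cis (f t1)) ⊆ T (z - cis θ) := by
    intro h5
    refine h.not_sub (x := z - cis θ) (y := z + cis t1 - cis (f t1)) ?_ h3' h5
    rw [hf1, dist_comm]; exact dist_rhomb' z t1 θ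
  have hend : c' ∈ T (z + cis t1 - cis (f t1)) ∧ T (z + cis t1) = B := by
    rcases hAB t1 (lt_of_lt_of_le (hfb t1 htc1).1 hεη) with h5 | h5 | h5
    · -- constant palette of the event
      exfalso
      refine hendτ fun i hi => ?_
      rcases hT6 ((hnr t1 htc1).1 hi) with (h8 | h8) | h8
      · exfalso
        refine h.mx.rhomb_notMem' (Q := T (z + cis t1)) hδ (fun u hu => ?_) (hne t1 htc1)
          (hnr t1 htc1).2.2 (by rw [h5]; exact h8) (h.sub _ hi)
        rw [← hconst u hu]; exact h.sub _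
      · exact h8
      · rw [mem_singleton_iff] at h8
        subst h8
        exact absurd hi (hs t1 htc1)
    · exfalso
      refine hendτ fun i hi => ?_
      rcases hT4 ((hnr t1 htc1).1 hi) with (h8 | h8) | h8
      · exact absurd hi (hPx t1 htc1 A hA hAz h5 i h8)
      · exact h8
      · rw [mem_singleton_iff] at h8
        subst h8
        exact absurd hi (hs t1 htc1)
    · refine ⟨?_, h5⟩
      by_contra hc
      refine hendτ fun i hi => ?_
      rcases hT5 ((hnr t1 htc1).1 hi) with (h8 | h8) | h8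
      · exact absurd hi (hPx t1 htc1 B hB hBz h5 i h8)
      · exact h8
      · rcases h8 with rfl | h8
        · exact absurd hi (hs t1 htc1)
        · rw [mem_singleton_iff] at h8
          subst h8
          exact absurd hi hc
  obtain ⟨t, ht, htc, htc'⟩ := exists_both hθ1.le (hcl c) (hcl c') (fun t ht => by
    rcases eq_or_lt_of_le ht.2 with h5 | h5
    · right; rw [h5]; exact (hmem c' t1 htc1).2 hend.1
    · rcases hmid t ⟨ht.1, h5⟩ with h6 | h6
      · exact Or.inl ((hmem c t ht).2 h6)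
      · exact Or.inr ((hmem c' t ht).2 h6))
    ((hmem c θ ⟨le_rfl, hθ1.le⟩).2 (hstartc θ ⟨le_rfl, hθ1⟩ rfl)) ((hmem c' t1 htc1).2 hend.1)
  have h5 := (hmem c t ht).1 htc
  have h6 := (hmem c' t ht).1 htc'
  have h7 := (hnr t ht).2.1 (by
    rw [hTq1]
    intro i hi
    rcases hi with rfl | hi
    · exact h5
    · rw [mem_singleton_iff] at hi
      rw [hi]; exact h6)
  have h8 : (T (z + cis t - cis (f t))).ncard ≤ 3 := by
    rcases eq_or_lt_of_le ht.2 with h9 | h9
    · refine (Set.ncard_le_ncard (fun i hi => ?_) (Set.toFinite _)).trans h4'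
      refine ⟨(hnr t ht).1 hi, fun h10 => ?_⟩
      rcases h10 with h10 | h10
      · exact hPx t ht B hB hBz (by rw [h9]; exact hend.2) i h10 hi
      · rw [mem_singleton_iff] at h10
        subst h10
        exact hs t ht hi
    · refine (Set.ncard_le_ncard (fun i hi => ?_) (Set.toFinite _)).trans h4
      refine ⟨(hnr t ht).1 hi, fun h10 => ?_⟩
      rcases h10 with h10 | h10
      · exact hQx t ⟨ht.1, h9⟩ i h10 hi
      · rw [mem_singleton_iff] at h10
        subst h10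
        exact hs t ht hi
  omega

end Vale.Agent.P032.Six
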